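import Crest.Agent.H3MT.Good

set_option autoImplicit false

namespace Crest.Agent.H3MT

open Finset

/-- sum over non-backtracking labelled paths -/
noncomputable def Bm {Ω G J : Type} [Fintype Ω] [DecidableEq Ω] [Fintype G] [DecidableEq J]
    (A : G → Matrix Ω Ω ℝ) (dir : G → J) : ℕ → J → Matrix Ω Ω ℝ
  | 0, _ => 1
  | m + 1, j => ∑ g ∈ univ.filter (fun g => dir g ≠ j), A g * Bm A dir m (dir g)

theorem chainA {Ω G J : Type} [Fintype Ω] [DecidableEq Ω] [Fintype G] [DecidableEq J]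
    (dir : G → J) {p K : ℝ} (hp : 0 < p) (hK : 0 ≤ K) (N : Seminorm ℝ V) (hMT : MT N p K)
    (π : Ω → ℝ) (hπ0 : ∀ ω, 0 ≤ π ω) (hπ1 : ∑ ω, π ω = 1) (c : G → Ω → Ω → ℝ)
    (hc0 : ∀ g ω ω', 0 ≤ c g ω ω') (hsym : ∀ ω ω', ∑ g, c g ω ω' = ∑ g, c g ω' ω)
    (hrow : ∀ ω, ∑ g, ∑ ω', c g ω ω' ≤ π ω) (Z : Ω → V) {s L : ℝ} (hs0 : 0 ≤ s)
    (hs : ∀ g ω ω', c g ω ω' ≠ 0 → N (Z ω' - Z ω) ≤ s) {t : ℕ} (ht : 1 ≤ t)
    (Inv : ℕ → J → Ω → V → Prop) (h0 : ∀ j ω, Inv 0 j ω 0)
    (hstep : ∀ m < t, ∀ j₀ g ω ω' v, dir g ≠ j₀ → c g ω ω' ≠ 0 → Inv m (dir g) ω' v →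
      Inv (m + 1) j₀ ω (Z ω' - Z ω + v))
    (hfin : ∀ j ω v, Inv t j ω v → L ≤ N v) (hL : 0 ≤ L) {ε : ℝ} (hε : 0 ≤ ε)
    (hmass : ∀ j₀ (h : G → Ω → ℝ) (ℓ : ℝ), (∀ g ω, 0 ≤ h g ω ∧ h g ω ≤ 1) →
      (∀ g, ℓ ≤ ∑ ω, π ω * h g ω) → ℓ ≤ 1 →
      ℓ - ε ≤ ∑ g ∈ univ.filter (fun g => dir g ≠ j₀), ∑ ω, ∑ ω', c g ω ω' * h g ω')
    (j₀ : J) : (1 - t * ε) * L ^ p ≤ K ^ p * t * s ^ p := by
  set A : G → Matrix Ω Ω ℝ := fun g => Matrix.of fun ω ω' => c g ω ω' / π ω with hA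
  have hA0 : ∀ g ω ω', 0 ≤ A g ω ω' := fun g ω ω' => div_nonneg (hc0 _ _ _) (hπ0 _)
  have hcle : ∀ g ω ω', c g ω ω' ≤ π ω := fun g ω ω' => by
    refine le_trans ?_ (hrow ω)
    refine le_trans ?_ (Finset.single_le_sum (f := fun g => ∑ ω', c g ω ω')
      (fun g _ => Finset.sum_nonneg fun ω' _ => hc0 _ _ _) (Finset.mem_univ g))
    exact Finset.single_le_sum (f := fun ω' => c g ω ω') (fun _ _ => hc0 _ _ _)
      (Finset.mem_univ ω')
  have hπA : ∀ g ω ω', π ω * A g ω ω' = c g ω ω' := fun g ω ω' => by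
    simp only [hA, Matrix.of_apply]
    rcases (hπ0 ω).eq_or_lt with h | h
    · have := hcle g ω ω'
      have := hc0 g ω ω'
      rw [← h, zero_mul]; linarith
    · field_simp
  set r : Ω → ℝ := fun ω => 1 - ∑ g, ∑ ω', A g ω ω' with hr
  have hr0 : ∀ ω, 0 ≤ r ω := fun ω => by
    simp only [hr, hA, Matrix.of_apply, ← Finset.sum_div]
    have := div_le_one_of_le₀ (hrow ω) (hπ0 ω)
    linarith
  set P : Matrix Ω Ω ℝ := ∑ g, A g + Matrix.diagonal r with hP
  have hPapp : ∀ ω ω', P ω ω' = ∑ g, A g ω ω' + if ω = ω' then r ω else 0 := fun ω ω' => by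
    simp [hP, Matrix.sum_apply, Matrix.diagonal_apply]
  have hPA : ∀ ω ω', ∑ g, A g ω ω' ≤ P ω ω' := fun ω ω' => by
    rw [hPapp]
    have := hr0 ω
    split_ifs <;> linarith
  have hP0 : ∀ ω ω', 0 ≤ P ω ω' := fun ω ω' =>
    (Finset.sum_nonneg fun g _ => hA0 g ω ω').trans (hPA ω ω')
  have hP1 : ∀ ω, ∑ ω', P ω ω' = 1 := fun ω => by
    simp only [hPapp, Finset.sum_add_distrib, Finset.sum_ite_eq, Finset.mem_univ, if_true, hr]
    rw [Finset.sum_comm]
    ring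
  have hPrev : ∀ ω ω', π ω * P ω ω' = π ω' * P ω' ω := fun ω ω' => by
    simp only [hPapp, mul_add, Finset.mul_sum, hπA, hsym ω ω']
    by_cases h : ω = ω'
    · subst h; rfl
    · simp [h, Ne.symm h]
  have hPs : P ∈ Matrix.rowStochastic ℝ Ω := Matrix.mem_rowStochastic_iff_sum.2 ⟨hP0, hP1⟩
  have hPm0 : ∀ m ω ω', 0 ≤ (P ^ m) ω ω' := fun m =>
    (Matrix.mem_rowStochastic_iff_sum.1 (pow_mem hPs m)).1
  have hPm1 : ∀ m ω, ∑ ω', (P ^ m) ω ω' = 1 := fun m =>
    (Matrix.mem_rowStochastic_iff_sum.1 (pow_mem hPs m)).2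
  have hBs : ∀ m j ω ω', Bm A dir (m + 1) j ω ω' =
      ∑ g ∈ univ.filter (fun g => dir g ≠ j), ∑ u, A g ω u * Bm A dir m (dir g) u ω' :=
    fun m j ω ω' => by simp only [Bm, Matrix.sum_apply, Matrix.mul_apply]
  have hB : ∀ m j ω ω', 0 ≤ Bm A dir m j ω ω' ∧ Bm A dir m j ω ω' ≤ (P ^ m) ω ω' := by
    intro m
    induction m with
    | zero =>
      intro j ω ω'
      have := hPm0 0 ω ω'
      simp only [Bm, pow_zero] at this ⊢
      exact ⟨this, le_rfl⟩
    | succ m ih =>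
      intro j ω ω'
      rw [hBs]
      refine ⟨Finset.sum_nonneg fun g _ => Finset.sum_nonneg fun u _ =>
        mul_nonneg (hA0 _ _ _) (ih _ _ _).1, ?_⟩
      rw [pow_succ', Matrix.mul_apply]
      calc _ ≤ ∑ g ∈ univ.filter (fun g => dir g ≠ j), ∑ u, A g ω u * (P ^ m) u ω' :=
            Finset.sum_le_sum fun g _ => Finset.sum_le_sum fun u _ =>
              mul_le_mul_of_nonneg_left (ih _ _ _).2 (hA0 _ _ _)
        _ ≤ ∑ g, ∑ u, A g ω u * (P ^ m) u ω' :=
            Finset.sum_le_sum_of_subset_of_nonneg (Finset.filter_subset _ _) fun g _ _ =>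
              Finset.sum_nonneg fun u _ => mul_nonneg (hA0 _ _ _) (hPm0 _ _ _)
        _ = ∑ u, (∑ g, A g ω u) * (P ^ m) u ω' := by
            rw [Finset.sum_comm]; simp only [Finset.sum_mul]
        _ ≤ _ := Finset.sum_le_sum fun u _ => mul_le_mul_of_nonneg_right (hPA _ _) (hPm0 _ _ _)
  have hsupp : ∀ m ≤ t, ∀ j ω ω', Bm A dir m j ω ω' ≠ 0 → Inv m j ω (Z ω' - Z ω) := by
    intro m
    induction m with
    | zero =>
      intro _ j ω ω' h
      have : ω = ω' := by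
        by_contra hne
        exact h (by simp [Bm, hne])
      subst this
      rw [sub_self]
      exact h0 j ω
    | succ m ih =>
      intro hm j ω ω' h
      rw [hBs] at h
      obtain ⟨g, hg, h⟩ := Finset.exists_ne_zero_of_sum_ne_zero h
      obtain ⟨u, -, h⟩ := Finset.exists_ne_zero_of_sum_ne_zero h
      have h1 : c g ω u ≠ 0 := fun h0 => h (by simp [hA, h0])
      have h2 := ih (by omega) _ _ _ (right_ne_zero_of_mul h)
      have := hstep m (by omega) j g ω u _ (Finset.mem_filter.1 hg).2 h1 h2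
      convert this using 1
      abel
  have hmass' : ∀ m j, 1 - m * ε ≤ ∑ ω, π ω * ∑ ω', Bm A dir m j ω ω' := by
    intro m
    induction m with
    | zero =>
      intro j
      simp [Bm, Matrix.one_apply, hπ1]
    | succ m ih =>
      intro j
      have := hmass j (fun g ω => ∑ ω', Bm A dir m (dir g) ω ω') (1 - m * ε) (fun g ω =>
        ⟨Finset.sum_nonneg fun ω' _ => (hB _ _ _ _).1,
          (Finset.sum_le_sum fun ω' _ => (hB _ _ _ _).2).trans (hPm1 m ω).le⟩)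
        (fun g => ih _) (by have : 0 ≤ m * ε := by positivity
                            linarith)
      calc _ = 1 - m * ε - ε := by push_cast; ring
        _ ≤ _ := this
        _ = _ := by
          simp only [hBs, Finset.mul_sum, ← hπA]
          rw [Finset.sum_comm]
          refine Finset.sum_congr rfl fun ω _ => ?_
          rw [Finset.sum_comm (s := univ (α := Ω))]
          refine Finset.sum_congr rfl fun g _ => ?_
          rw [Finset.sum_comm]
          simp only [mul_assoc]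
  have main := hMT Ω π P hπ0 hπ1 hP0 hP1 hPrev Z t ht
  have hup : ∑ ω, ∑ ω', π ω * P ω ω' * N (Z ω' - Z ω) ^ p ≤ s ^ p := by
    calc _ ≤ ∑ ω, ∑ ω', π ω * P ω ω' * s ^ p := by
          refine Finset.sum_le_sum fun ω _ => Finset.sum_le_sum fun ω' _ => ?_
          by_cases hω : ω = ω'
          · subst hω
            refine mul_le_mul_of_nonneg_left ?_ (mul_nonneg (hπ0 _) (hP0 _ _))
            exact Real.rpow_le_rpow (apply_nonneg _ _) (by simpa using hs0) hp.le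
          · rw [hPapp, if_neg hω, add_zero, Finset.mul_sum]
            simp only [hπA, Finset.sum_mul]
            refine Finset.sum_le_sum fun g _ => ?_
            by_cases hc : c g ω ω' = 0
            · simp [hc]
            · exact mul_le_mul_of_nonneg_left
                (Real.rpow_le_rpow (apply_nonneg _ _) (hs g _ _ hc) hp.le) (hc0 _ _ _)
      _ = s ^ p := by
          simp only [← Finset.sum_mul, ← Finset.mul_sum, hP1, mul_one, hπ1, one_mul]
  have hlow : (1 - t * ε) * L ^ p ≤ ∑ ω, ∑ ω', π ω * (P ^ t) ω ω' * N (Z ω' - Z ω) ^ p := by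
    calc _ ≤ (∑ ω, π ω * ∑ ω', Bm A dir t j₀ ω ω') * L ^ p :=
          mul_le_mul_of_nonneg_right (hmass' t j₀) (Real.rpow_nonneg hL _)
      _ = ∑ ω, ∑ ω', π ω * Bm A dir t j₀ ω ω' * L ^ p := by
          simp only [Finset.sum_mul, Finset.mul_sum]
      _ ≤ _ := by
          refine Finset.sum_le_sum fun ω _ => Finset.sum_le_sum fun ω' _ => ?_
          by_cases hb : Bm A dir t j₀ ω ω' = 0
          · rw [hb, mul_zero, zero_mul]
            exact mul_nonneg (mul_nonneg (hπ0 _) (hPm0 _ _ _))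
              (Real.rpow_nonneg (apply_nonneg _ _) _)
          · exact mul_le_mul (mul_le_mul_of_nonneg_left (hB _ _ _ _).2 (hπ0 _))
              (Real.rpow_le_rpow hL (hfin _ _ _ (hsupp t le_rfl _ _ _ hb)) hp.le)
              (Real.rpow_nonneg hL _) (mul_nonneg (hπ0 _) (hPm0 _ _ _))
  refine hlow.trans (main.trans ?_)
  exact mul_le_mul_of_nonneg_left hup (mul_nonneg (Real.rpow_nonneg hK _) (Nat.cast_nonneg _))

end Crest.Agent.H3MT
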