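import Crest.Agent.H3MT.ChainA

set_option autoImplicit false

namespace Crest.Agent.H3MT

open Finset

lemma count_coord {I : Type} [Fintype I] [DecidableEq I] (ℓ : ℕ) (ε : I) :
    ∑ n : I → Fin (ℓ + 1), (if n ε = Fin.last ℓ then (1 : ℝ) else 0) =
      Fintype.card (I → Fin (ℓ + 1)) / (ℓ + 1) := by
  have h1 : ∀ c : Fin (ℓ + 1), ∑ n : I → Fin (ℓ + 1), (if n ε = c then (1 : ℝ) else 0) =
      ∑ n : I → Fin (ℓ + 1), (if n ε = Fin.last ℓ then (1 : ℝ) else 0) := by
    intro c
    rw [← Equiv.sum_comp (Equiv.addRight (Pi.single ε (c - Fin.last ℓ) : I → Fin (ℓ + 1)))]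
    refine Finset.sum_congr rfl fun n _ => ?_
    simp only [Equiv.coe_addRight, Pi.add_apply, Pi.single_eq_same]
    congr 1
    apply propext
    constructor
    · intro h
      have : n ε = c - (c - Fin.last ℓ) := eq_sub_of_add_eq h
      rw [this]; abel
    · intro h
      rw [h]; abel
  have h2 : ∑ c : Fin (ℓ + 1), ∑ n : I → Fin (ℓ + 1), (if n ε = c then (1 : ℝ) else 0) =
      Fintype.card (I → Fin (ℓ + 1)) := by
    rw [Finset.sum_comm]
    simp
  simp only [h1, Finset.sum_const, Finset.card_univ, Fintype.card_fin, nsmul_eq_mul] at h2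
  rw [← h2]
  push_cast
  field_simp

theorem chainB {T A Box : Type} [Fintype T] [Fintype A] [Fintype Box] [Nonempty Box]
    [DecidableEq T] [DecidableEq Box] {d : ℕ} (hd : 0 < d) {p K : ℝ} (hp : 0 < p)
    (hK : 0 ≤ K) (N : Seminorm ℝ V) (hMT : MT N p K) (m : A → ℝ) (hm0 : ∀ a, 0 ≤ m a)
    (hm1 : ∑ a, m a = 1) (tail : A → T) (head : Fin d → A → T) (f : Fin d → A → V) {s L : ℝ}
    (hs0 : 0 ≤ s) (hs : ∀ j a, N (f j a) ≤ s) {δ : ℝ} (hδ : 0 ≤ δ)
    (hHB : ∀ H : T → ℝ, (∀ x, |H x| ≤ 1) → ∀ j,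
      |∑ a, m a * H (tail a) - ∑ a, m a * H (head j a)| ≤ δ) {t : ℕ} (ht : 1 ≤ t)
    (Inv : ℕ → Fin d → T → V → Prop) (h0 : ∀ j x, Inv 0 j x 0)
    (hstep1 : ∀ r < t, ∀ j₀ j a v, j ≠ j₀ → Inv r j (head j a) v →
      Inv (r + 1) j₀ (tail a) (f j a + v))
    (hstep2 : ∀ r < t, ∀ j₀ j a v, j ≠ j₀ → Inv r j (tail a) v →
      Inv (r + 1) j₀ (head j a) (-f j a + v))
    (hfin : ∀ j x v, Inv t j x v → L ≤ N v) (hL : 0 ≤ L) {η : ℝ} (hη : 0 ≤ η)
    (shift : Fin d → A → Box ≃ Box) (bad : Fin d → A → Box → Prop)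
    [∀ j a n, Decidable (bad j a n)]
    (hbad : ∀ j a, ∑ n, (if bad j a n then (1 : ℝ) else 0) = Fintype.card Box * η)
    (ZB : Box → V) (hZB : ∀ j a n, ¬ bad j a n → ZB (shift j a n) - ZB n = f j a) :
    (1 - t * (1 / d + 2 * δ + η)) * L ^ p ≤ K ^ p * t * s ^ p := by
  let β : ℝ := Fintype.card Box
  have hβ : 0 < β := by
    have : 0 < Fintype.card Box := Fintype.card_pos
    simp only [β]; exact_mod_cast this
  have hd' : (0 : ℝ) < d := by exact_mod_cast hd
  let κ : ℝ := 1 / (2 * d * β)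
  have hκ : 0 < κ := by positivity
  let src : A × Box → T × Box := fun i => (tail i.1, i.2)
  let tgt : Fin d → A × Box → T × Box := fun j i => (head j i.1, shift j i.1 i.2)
  let wt : Fin d → A × Box → ℝ := fun j i => if bad j i.1 i.2 then 0 else m i.1 * κ
  have hwt0 : ∀ j i, 0 ≤ wt j i := fun j i => by
    simp only [wt]; split_ifs
    · exact le_rfl
    · exact mul_nonneg (hm0 _) hκ.le
  have hwt1 : ∀ j i, wt j i ≤ m i.1 * κ := fun j i => by
    simp only [wt]; split_ifs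
    · exact mul_nonneg (hm0 _) hκ.le
    · exact le_rfl
  let c₀ : Fin d → T × Box → T × Box → ℝ := fun j ω ω' =>
    ∑ i, if src i = ω ∧ tgt j i = ω' then wt j i else 0
  have hc₀ : ∀ j ω ω', 0 ≤ c₀ j ω ω' := fun j ω ω' => Finset.sum_nonneg fun i _ => by
    split_ifs
    · exact hwt0 _ _
    · exact le_rfl
  have hcsum : ∀ j (F : T × Box → T × Box → ℝ), ∑ ω, ∑ ω', c₀ j ω ω' * F ω ω' =
      ∑ i, wt j i * F (src i) (tgt j i) := by
    intro j F
    simp only [c₀, Finset.sum_mul]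
    have : ∀ ω, ∑ ω', ∑ i, (if src i = ω ∧ tgt j i = ω' then wt j i else 0) * F ω ω' =
        ∑ i, ∑ ω', (if src i = ω ∧ tgt j i = ω' then wt j i else 0) * F ω ω' :=
      fun ω => Finset.sum_comm
    simp only [this]
    rw [Finset.sum_comm]
    refine Finset.sum_congr rfl fun i _ => ?_
    simp [ite_and]
  have hcne : ∀ j ω ω', c₀ j ω ω' ≠ 0 → ∃ i, src i = ω ∧ tgt j i = ω' ∧
      ¬ bad j i.1 i.2 := by
    intro j ω ω' h
    obtain ⟨i, -, hi⟩ := Finset.exists_ne_zero_of_sum_ne_zero h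
    by_cases h1 : src i = ω ∧ tgt j i = ω'
    · rw [if_pos h1] at hi
      exact ⟨i, h1.1, h1.2, fun h2 => hi (by simp [wt, h2])⟩
    · exact absurd (if_neg h1) hi
  let c : Fin d × Bool → T × Box → T × Box → ℝ := fun g ω ω' =>
    if g.2 then c₀ g.1 ω ω' else c₀ g.1 ω' ω
  let π : T × Box → ℝ := fun ω => ∑ j, ∑ i,
    ((if src i = ω then m i.1 * κ else 0) + if tgt j i = ω then m i.1 * κ else 0)
  have hπsum : ∀ h : T × Box → ℝ, ∑ ω, π ω * h ω =
      ∑ j, ∑ i, (m i.1 * κ * h (src i) + m i.1 * κ * h (tgt j i)) := by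
    intro h
    simp only [π, Finset.sum_mul]
    rw [Finset.sum_comm]
    refine Finset.sum_congr rfl fun j _ => ?_
    rw [Finset.sum_comm]
    refine Finset.sum_congr rfl fun i _ => ?_
    simp [add_mul, Finset.sum_add_distrib]
  have hsrc : ∀ h : T × Box → ℝ, ∑ i, m i.1 * κ * h (src i) =
      1 / (2 * d) * ∑ a, m a * ((∑ n, h (tail a, n)) / β) := by
    intro h
    rw [Fintype.sum_prod_type, Finset.mul_sum]
    refine Finset.sum_congr rfl fun a _ => ?_
    simp only [src, ← Finset.mul_sum, κ]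
    field_simp
  have htgt : ∀ j (h : T × Box → ℝ), ∑ i, m i.1 * κ * h (tgt j i) =
      1 / (2 * d) * ∑ a, m a * ((∑ n, h (head j a, n)) / β) := by
    intro j h
    rw [Fintype.sum_prod_type, Finset.mul_sum]
    refine Finset.sum_congr rfl fun a _ => ?_
    simp only [tgt, ← Finset.mul_sum, κ]
    rw [Equiv.sum_comp (shift j a) (fun n => h (head j a, n))]
    field_simp
  let Z : T × Box → V := fun ω => ZB ω.2
  have hZ : ∀ j i, ¬ bad j i.1 i.2 → Z (tgt j i) - Z (src i) = f j i.1 :=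
    fun j i hi => hZB j i.1 i.2 hi
  have hloss : ∀ j (u : A × Box → ℝ), (∀ i, u i ≤ 1) →
      ∑ i, m i.1 * κ * u i - 1 / (2 * d) * η ≤ ∑ i, wt j i * u i := by
    intro j u hu
    have e1 : ∑ i : A × Box, m i.1 * κ * (if bad j i.1 i.2 then (1 : ℝ) else 0) =
        1 / (2 * d) * η := by
      rw [Fintype.sum_prod_type]
      simp only [← Finset.mul_sum, hbad, ← Finset.sum_mul, hm1, κ]
      change 1 * (1 / (2 * d * β)) * (β * η) = _
      field_simp
    rw [← e1, ← Finset.sum_sub_distrib]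
    refine Finset.sum_le_sum fun i _ => ?_
    have := mul_le_mul_of_nonneg_left (hu i) (mul_nonneg (hm0 i.1) hκ.le)
    simp only [wt]
    split_ifs <;> linarith
  refine chainA (G := Fin d × Bool) Prod.fst hp hK N hMT π ?_ ?_ c ?_ ?_ ?_ Z hs0 ?_ ht
    (fun r j ω v => Inv r j ω.1 v) (fun j ω => h0 j ω.1) ?_ (fun j ω v => hfin j ω.1 v) hL
    (by positivity) ?_ ⟨0, hd⟩
  · intro ω
    refine Finset.sum_nonneg fun j _ => Finset.sum_nonneg fun i _ => ?_
    have := mul_nonneg (hm0 i.1) hκ.le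
    split_ifs <;> linarith
  · have := hπsum fun _ => 1
    simp only [Finset.sum_add_distrib] at this
    rw [hsrc (fun _ => 1)] at this
    rw [← Finset.sum_congr rfl fun ω _ => mul_one (π ω), this]
    have e : (∑ _n : Box, (1 : ℝ)) / β = 1 := by
      simp only [Finset.sum_const, Finset.card_univ, nsmul_eq_mul, mul_one]
      exact div_self hβ.ne'
    rw [e]
    simp only [mul_one, hm1, Finset.sum_const, Finset.card_univ, Fintype.card_fin,
      nsmul_eq_mul]
    field_simp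
    norm_num
  · intro g ω ω'
    simp only [c]
    split_ifs <;> exact hc₀ _ _ _
  · intro ω ω'
    rw [Fintype.sum_prod_type, Fintype.sum_prod_type]
    refine Finset.sum_congr rfl fun j _ => ?_
    rw [Fintype.sum_bool, Fintype.sum_bool]
    exact add_comm _ _
  · intro ω
    simp only [Fintype.sum_prod_type (α₂ := Bool), Fintype.sum_bool, c, if_true,
      Bool.false_eq_true, if_false, π]
    refine Finset.sum_le_sum fun j _ => ?_
    rw [Finset.sum_add_distrib]
    have e1 := hcsum j (fun u _ => if u = ω then 1 else 0)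
    have e2 := hcsum j (fun _ u => if u = ω then 1 else 0)
    rw [Finset.sum_comm] at e1
    simp only [mul_ite, mul_one, mul_zero, Finset.sum_ite_eq', Finset.mem_univ, if_true] at e1 e2
    rw [e1, e2]
    refine add_le_add (Finset.sum_le_sum fun i _ => ?_) (Finset.sum_le_sum fun i _ => ?_) <;>
    · split_ifs
      · exact hwt1 _ _
      · exact le_rfl
  · rintro ⟨j, b⟩ ω ω' h
    cases b
    · obtain ⟨i, rfl, rfl, hi⟩ := hcne j _ _ h
      rw [← map_neg_eq_map, neg_sub, hZ j i hi]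
      exact hs _ _
    · obtain ⟨i, rfl, rfl, hi⟩ := hcne j _ _ h
      rw [hZ j i hi]
      exact hs _ _
  · rintro r hr j₀ ⟨j, b⟩ ω ω' v hj h hI
    cases b
    · obtain ⟨i, rfl, rfl, hi⟩ := hcne j _ _ h
      rw [← neg_sub, hZ j i hi]
      exact hstep2 r hr j₀ j i.1 v hj hI
    · obtain ⟨i, rfl, rfl, hi⟩ := hcne j _ _ h
      rw [hZ j i hi]
      exact hstep1 r hr j₀ j i.1 v hj hI
  · intro j₀ h l hh hl hl1
    have hterm : ∀ g : Fin d × Bool, 1 / (2 * d) * (l - 2 * δ - η) ≤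
        ∑ ω, ∑ ω', c g ω ω' * h g ω' := by
      rintro ⟨j, b⟩
      set H : T → ℝ := fun x => (∑ n, h (j, b) (x, n)) / β with hH
      have hH1 : ∀ x, |H x| ≤ 1 := fun x => by
        have e0 : 0 ≤ ∑ n, h (j, b) (x, n) := Finset.sum_nonneg fun n _ => (hh _ _).1
        have e1 : ∑ n, h (j, b) (x, n) ≤ ∑ _n : Box, (1 : ℝ) :=
          Finset.sum_le_sum fun n _ => (hh _ _).2
        simp only [Finset.sum_const, Finset.card_univ, nsmul_eq_mul, mul_one] at e1
        rw [abs_of_nonneg (div_nonneg e0 hβ.le)]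
        exact div_le_one_of_le₀ e1 hβ.le
      have hb := fun j => abs_le.1 (hHB H hH1 j)
      have e1 : l ≤ ∑ a, m a * H (tail a) + δ := by
        refine (hl (j, b)).trans ?_
        rw [hπsum]
        simp only [Finset.sum_add_distrib, hsrc, htgt]
        rw [← Finset.sum_add_distrib]
        calc _ ≤ ∑ _j : Fin d, 1 / (d : ℝ) * (∑ a, m a * H (tail a) + δ) := by
              refine Finset.sum_le_sum fun j' _ => ?_
              have := (hb j').1
              rw [← mul_add]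
              change 1 / (2 * (d : ℝ)) * (∑ a, m a * H (tail a) + ∑ a, m a * H (head j' a)) ≤ _
              have e : 1 / (d : ℝ) * (∑ a, m a * H (tail a) + δ) =
                  1 / (2 * d) * (2 * (∑ a, m a * H (tail a) + δ)) := by field_simp
              rw [e]
              exact mul_le_mul_of_nonneg_left (by linarith) (by positivity)
          _ = _ := by
              simp only [Finset.sum_const, Finset.card_univ, Fintype.card_fin, nsmul_eq_mul]
              field_simp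
      have hpos : (0 : ℝ) ≤ 1 / (2 * d) := by positivity
      cases b
      · simp only [c, Bool.false_eq_true, if_false]
        rw [Finset.sum_comm, hcsum j (fun u _ => h (j, false) u)]
        refine le_trans ?_ (hloss j _ fun i => (hh _ _).2)
        rw [hsrc, ← mul_sub]
        refine mul_le_mul_of_nonneg_left ?_ hpos
        change _ ≤ ∑ a, m a * H (tail a) - _
        linarith
      · simp only [c, if_true]
        rw [hcsum j (fun _ u => h (j, true) u)]
        refine le_trans ?_ (hloss j _ fun i => (hh _ _).2)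
        rw [htgt, ← mul_sub]
        refine mul_le_mul_of_nonneg_left ?_ hpos
        change _ ≤ ∑ a, m a * H (head j a) - _
        linarith [(hb j).2]
    refine le_trans ?_ (Finset.sum_le_sum fun g _ => hterm g)
    have hfil : univ.filter (fun g : Fin d × Bool => g.1 ≠ j₀) = (univ.erase j₀) ×ˢ univ := by
      ext g; simp
    rw [hfil, Finset.sum_const, Finset.card_product,
      Finset.card_erase_of_mem (Finset.mem_univ _), Finset.card_univ, Fintype.card_fin,
      Finset.card_univ, Fintype.card_bool, nsmul_eq_mul, Nat.cast_mul, Nat.cast_pred hd]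
    set y : ℝ := l - 2 * δ - η with hy
    have hy1 : y ≤ 1 := by linarith
    have e : ((d : ℝ) - 1) * ((2 : ℕ) : ℝ) * (1 / (2 * d) * y) = y - 1 / d * y := by
      push_cast; field_simp
    rw [e]
    have : 1 / (d : ℝ) * y ≤ 1 / d * 1 := mul_le_mul_of_nonneg_left hy1 (by positivity)
    linarith

theorem chainC {T A : Type} [Fintype T] [Fintype A] {d : ℕ} (hd : 0 < d) {p K : ℝ} (hp : 0 < p)
    (hK : 0 ≤ K) (N : Seminorm ℝ V) (hMT : MT N p K) (m : A → ℝ) (hm0 : ∀ a, 0 ≤ m a)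
    (hm1 : ∑ a, m a = 1) (tail : A → T) (head : Fin d → A → T) (f : Fin d → A → V) {s L : ℝ}
    (hs0 : 0 ≤ s) (hs : ∀ j a, N (f j a) ≤ s) {δ : ℝ} (hδ : 0 ≤ δ)
    (hHB : ∀ H : T → ℝ, (∀ x, |H x| ≤ 1) → ∀ j,
      |∑ a, m a * H (tail a) - ∑ a, m a * H (head j a)| ≤ δ) {t : ℕ} (ht : 1 ≤ t)
    (Inv : ℕ → Fin d → T → V → Prop) (h0 : ∀ j x, Inv 0 j x 0)
    (hstep1 : ∀ r < t, ∀ j₀ j a v, j ≠ j₀ → Inv r j (head j a) v →
      Inv (r + 1) j₀ (tail a) (f j a + v))
    (hstep2 : ∀ r < t, ∀ j₀ j a v, j ≠ j₀ → Inv r j (tail a) v →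
      Inv (r + 1) j₀ (head j a) (-f j a + v))
    (hfin : ∀ j x v, Inv t j x v → L ≤ N v) (hL : 0 ≤ L) (ℓ : ℕ) :
    (1 - t * (1 / d + 2 * δ + 1 / (ℓ + 1))) * L ^ p ≤ K ^ p * t * s ^ p := by
  classical
  refine chainB (Box := Fin d × A → Fin (ℓ + 1)) hd hp hK N hMT m hm0 hm1 tail head f hs0 hs hδ
    hHB ht Inv h0 hstep1 hstep2 hfin hL (by positivity)
    (fun j a => Equiv.addRight (Pi.single (j, a) 1)) (fun j a n => n (j, a) = Fin.last ℓ)
    (fun j a => by rw [count_coord]; ring) (fun n => ∑ ε, ((n ε : ℕ) : ℝ) • f ε.1 ε.2) ?_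
  intro j a n hn
  simp only [← Finset.sum_sub_distrib, ← sub_smul, Equiv.coe_addRight]
  rw [Finset.sum_eq_single (j, a)]
  · simp only [Pi.add_apply, Pi.single_eq_same]
    rw [Fin.val_add_one_of_lt (Fin.lt_last_iff_ne_last.2 hn)]
    simp
  · intro ε _ hε
    simp [Pi.single_eq_of_ne hε]
  · simp

end Crest.Agent.H3MT
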