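import Crest.Agent.H3MT.Pattern

set_option autoImplicit false

namespace Crest.Agent.H3MT

open Finset

lemma exists_sigma {p q : ℝ} (hpq : p < q) (hqp : q < p + 1) :
    ∃ σ : ℝ ≃o ℝ, (∀ (x : ℝ) (n : ℤ), σ (x + n) = σ x + n) ∧ σ p = q ∧ σ q = p + 1 := by
  set u := q - p with hu
  have hu0 : 0 < u := by linarith
  have hu1 : 0 < 1 - u := by linarith
  let g : ℝ → ℝ := fun r => if r ≤ u then u + r * ((1 - u) / u) else 1 + (r - u) * (u / (1 - u))
  have k1 : 0 < (1 - u) / u := by positivity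
  have k2 : 0 < u / (1 - u) := by positivity
  have k3 : u * ((1 - u) / u) = 1 - u := by field_simp
  have k4 : (1 - u) * (u / (1 - u)) = u := by field_simp
  have hg : StrictMono g := by
    intro r r' h
    simp only [g]
    split_ifs with h1 h2 h2
    · nlinarith
    · nlinarith
    · linarith
    · nlinarith
  have hg0 : g 0 = u := by simp [g, hu0.le]
  have hg1 : g 1 = 1 + u := by
    have : ¬ (1 : ℝ) ≤ u := by linarith
    simp only [g, if_neg this, k4]
  have hgu : g u = 1 := by simp only [g, le_refl, if_true, k3]; ring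
  let s : ℝ → ℝ := fun x => p + ⌊x - p⌋ + g (Int.fract (x - p))
  have hs : StrictMono s := by
    intro x y h
    simp only [s]
    rcases (Int.floor_mono (sub_le_sub_right h.le p)).eq_or_lt with h1 | h1
    · have : Int.fract (x - p) < Int.fract (y - p) := by
        simp only [Int.fract, h1]; linarith
      have := hg this
      rw [h1]; linarith
    · have e1 := hg (Int.fract_lt_one (x - p))
      have e2 := hg.monotone (Int.fract_nonneg (y - p))
      have : (⌊x - p⌋ : ℝ) + 1 ≤ ⌊y - p⌋ := by exact_mod_cast h1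
      linarith
  have hsurj : Function.Surjective s := by
    intro w
    have v0 := Int.fract_nonneg (w - p - u)
    have v1 := Int.fract_lt_one (w - p - u)
    set v := Int.fract (w - p - u) with hv
    obtain ⟨r, r0, r1, hr⟩ : ∃ r, 0 ≤ r ∧ r < 1 ∧ g r = u + v := by
      by_cases h : v ≤ 1 - u
      · have e : v * (u / (1 - u)) ≤ u := by nlinarith
        refine ⟨v * (u / (1 - u)), by positivity, by linarith, ?_⟩
        simp only [g, if_pos e]
        field_simp
      · have e : ¬ u + (u + v - 1) * ((1 - u) / u) ≤ u := by nlinarith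
        refine ⟨u + (u + v - 1) * ((1 - u) / u), by nlinarith, by nlinarith, ?_⟩
        simp only [g, if_neg e]
        field_simp
        ring
    refine ⟨p + ⌊w - p - u⌋ + r, ?_⟩
    have e : p + ⌊w - p - u⌋ + r - p = ⌊w - p - u⌋ + r := by ring
    simp only [s, e, Int.floor_intCast_add, Int.fract_intCast_add,
      Int.floor_eq_zero_iff.2 ⟨r0, r1⟩, Int.fract_eq_self.2 ⟨r0, r1⟩, hr]
    rw [hv, Int.fract]
    push_cast
    ring
  refine ⟨hs.orderIsoOfSurjective s hsurj, fun x n => ?_, ?_, ?_⟩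
  · change s (x + n) = s x + n
    have e : x + n - p = x - p + n := by ring
    simp only [s, e, Int.floor_add_intCast, Int.fract_add_intCast]
    push_cast
    ring
  · change s p = q
    simp [s, hg0, hu]
  · change s q = p + 1
    simp only [s, ← hu, Int.floor_eq_zero_iff.2 ⟨hu0.le, by linarith⟩,
      Int.fract_eq_self.2 ⟨hu0.le, by linarith⟩, hgu]
    simp

/-- the invariant along non-backtracking paths -/
def GInv (S : ℕ → Finset ℝ) (N r : ℕ) (lo hi : ℝ) (x : ℝ → ℕ) (v : V) : Prop :=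
  ∃ (P Q : ℕ → ℝ) (α β : ℕ → ℤ), (∀ i < r, lo < P i ∧ Q i < hi) ∧
    (∀ i < r, ∀ j < r, P i < Q j) ∧ (∀ i < r, ∀ j < r, P i = P j → i = j) ∧
    (∀ i < r, ∀ j < r, Q i = Q j → i = j) ∧ (∀ i < r, |α i| ≤ r ∧ |β i| ≤ r) ∧
    (∀ i < r, ∀ k < N, P i + α i + k ∈ S r ∧ Q i + β i + k ∈ S r) ∧
    v = ∑ i ∈ range r, ∑ k ∈ range N, (e (x (P i + α i + k)) - e (x (Q i + β i + k)))

lemma GInv.zero (S : ℕ → Finset ℝ) (N : ℕ) (lo hi : ℝ) (x : ℝ → ℕ) : GInv S N 0 lo hi x 0 :=
  ⟨0, 0, 0, 0, by simp, by simp, by simp, by simp, by simp, by simp, by simp⟩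

lemma GInv.step {S : ℕ → Finset ℝ} {N r : ℕ} {p q lo hi : ℝ} {x y : ℝ → ℕ} {v : V}
    (h : GInv S N r q (p + 1) y v) (hpq : p < q) (τ : ℝ ≃o ℝ)
    (hτ : ∀ (x : ℝ) (n : ℤ), τ (x + n) = τ x + n) {c₁ c₂ : ℤ} (hc₁ : 0 ≤ c₁ ∧ c₁ ≤ 1)
    (hc₂ : 0 ≤ c₂ ∧ c₂ ≤ 1) (h1 : τ q = p + c₁) (h2 : τ (p + 1) = q + c₁)
    (hlo : lo < p + c₂) (hhi : q + c₂ < hi) (hxy : ∀ u ∈ S r, y u = x (τ u))
    (hS : ∀ u ∈ S r, τ u ∈ S (r + 1))
    (hb : ∀ k < N, p + c₁ + k ∈ S (r + 1) ∧ q + k ∈ S (r + 1)) :
    GInv S N (r + 1) lo hi x (∑ k ∈ range N, (e (x (p + c₁ + k)) - e (x (q + k))) + v) := by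
  obtain ⟨P, Q, α, β, g1, g2, g3, g4, g5, g6, rfl⟩ := h
  have hP : ∀ i < r, p + c₁ < τ (P i) ∧ τ (P i) < q + c₁ := fun i hi =>
    ⟨h1 ▸ τ.strictMono (g1 i hi).1, h2 ▸ τ.strictMono ((g2 i hi i hi).trans (g1 i hi).2)⟩
  have hQ : ∀ i < r, p + c₁ < τ (Q i) ∧ τ (Q i) < q + c₁ := fun i hi =>
    ⟨h1 ▸ τ.strictMono ((g1 i hi).1.trans (g2 i hi i hi)), h2 ▸ τ.strictMono (g1 i hi).2⟩
  have hτ' : ∀ (u : ℝ) (a : ℤ) (k : ℕ),
      τ u - c₁ + c₂ + ((a + c₁ - c₂ : ℤ) : ℝ) + k = τ (u + a + k) := by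
    intro u a k
    have := hτ u (a + k)
    push_cast at this ⊢
    rw [add_assoc u, this]; ring
  have b1 : ∀ k : ℕ, p + c₂ + ((c₁ - c₂ : ℤ) : ℝ) + k = p + c₁ + k := fun k => by
    push_cast; ring
  have b2 : ∀ k : ℕ, q + c₂ + ((-c₂ : ℤ) : ℝ) + k = q + k := fun k => by
    push_cast; ring
  refine ⟨fun i => Nat.casesOn i (p + c₂) fun i => τ (P i) - c₁ + c₂,
    fun i => Nat.casesOn i (q + c₂) fun i => τ (Q i) - c₁ + c₂,
    fun i => Nat.casesOn i (c₁ - c₂) fun i => α i + c₁ - c₂,
    fun i => Nat.casesOn i (-c₂) fun i => β i + c₁ - c₂, ?_, ?_, ?_, ?_, ?_, ?_, ?_⟩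
  · rintro (_ | i) hi
    · exact ⟨hlo, hhi⟩
    · have := hP i (by omega)
      have := hQ i (by omega)
      constructor <;> simp only <;> linarith
  · rintro (_ | i) hi (_ | j) hj <;> simp only [Nat.rec_zero]
    · linarith
    · linarith [hQ j (by omega)]
    · linarith [hP i (by omega)]
    · linarith [τ.strictMono (g2 i (by omega) j (by omega))]
  · rintro (_ | i) hi (_ | j) hj <;> simp only [Nat.rec_zero] <;> intro h
    · trivial
    · linarith [hP j (by omega)]
    · linarith [hP i (by omega)]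
    · rw [g3 i (by omega) j (by omega) (τ.injective (by linarith))]
  · rintro (_ | i) hi (_ | j) hj <;> simp only [Nat.rec_zero] <;> intro h
    · trivial
    · linarith [hQ j (by omega)]
    · linarith [hQ i (by omega)]
    · rw [g4 i (by omega) j (by omega) (τ.injective (by linarith))]
  · rintro (_ | i) hi <;> simp only [Nat.rec_zero, abs_le]
    · push_cast; omega
    · have := g5 i (by omega)
      simp only [abs_le] at this
      push_cast; omega
  · rintro (_ | i) hi k hk <;> simp only [Nat.rec_zero]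
    · rw [b1, b2]; exact hb k hk
    · rw [hτ', hτ']
      exact ⟨hS _ (g6 i (by omega) k hk).1, hS _ (g6 i (by omega) k hk).2⟩
  · rw [Finset.sum_range_succ', add_comm]
    simp only [Nat.rec_zero, b1, b2, hτ']
    congr 1
    refine Finset.sum_congr rfl fun i hi => Finset.sum_congr rfl fun k hk => ?_
    have := g6 i (Finset.mem_range.1 hi) k (Finset.mem_range.1 hk)
    rw [hxy _ this.1, hxy _ this.2]

variable {θ p K : ℝ} {ν : Seminorm ℝ V}

lemma junk_le (g : ℕ → V) (hg : ∀ k, ν (g k) ≤ 1) (N M a : ℕ) (ha : a ≤ M) :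
    ν (∑ k ∈ range (N + M), g k - ∑ k ∈ range N, g (a + k)) ≤ M := by
  obtain ⟨b, rfl⟩ := Nat.exists_eq_add_of_le ha
  have : N + (a + b) = a + N + b := by ring
  rw [this, Finset.sum_range_add, Finset.sum_range_add]
  have e : ∑ k ∈ range a, g k + ∑ k ∈ range N, g (a + k) + ∑ k ∈ range b, g (a + N + k) -
      ∑ k ∈ range N, g (a + k) = ∑ k ∈ range a, g k + ∑ k ∈ range b, g (a + N + k) := by abel
  rw [e]
  refine (map_add_le_add _ _ _).trans ?_
  have e1 := (semi_sum_le ν (range a) g).trans (Finset.sum_le_sum fun k _ => hg k)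
  have e2 := (semi_sum_le ν (range b) fun k => g (a + N + k)).trans
    (Finset.sum_le_sum fun k _ => hg _)
  simp only [Finset.sum_const, Finset.card_range, nsmul_eq_mul, mul_one] at e1 e2
  push_cast
  linarith

lemma shift_aux {t : ℕ} {a : ℤ} (ha : |a| ≤ t) : ∃ n : ℕ, n ≤ 2 * t ∧ (a : ℝ) + n = t := by
  rw [abs_le] at ha
  refine ⟨(t - a).toNat, by omega, ?_⟩
  have : (((t - a).toNat : ℤ) : ℝ) = ((t - a : ℤ) : ℝ) := by
    rw [Int.toNat_of_nonneg (by omega)]
  push_cast at this
  rw [this]; ring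

lemma GInv.lower1 (hν : Good θ p K ν) {S : ℕ → Finset ℝ} {N t : ℕ} {lo hi : ℝ} {x : ℝ → ℕ}
    {v : V} (h : GInv S (N + 2 * t) t lo hi x v) (hlh : hi ≤ lo + 1)
    (hx : StrictMonoOn x (S t)) : phi ν N t - 4 * t ^ 2 ≤ ν v := by
  obtain ⟨P, Q, α, β, g1, g2, g3, g4, g5, g6, rfl⟩ := h
  have hm : ∀ i < t, ∀ k < N, P i + t + k ∈ S t ∧ Q i + t + k ∈ S t := by
    intro i hi k hk
    obtain ⟨a, ha, ha'⟩ := shift_aux (g5 i hi).1
    obtain ⟨b, hb, hb'⟩ := shift_aux (g5 i hi).2
    have e1 := (g6 i hi (a + k) (by omega)).1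
    have e2 := (g6 i hi (b + k) (by omega)).2
    push_cast at e1 e2
    rw [← ha'] 
    nth_rewrite 2 [ha']
    rw [← hb']
    constructor
    · convert e1 using 1; ring
    · convert e2 using 1; ring
  have hmid := pattern hν (N := N) (t := t) (fun k i => x (P i + t + k))
    (fun k i => x (Q i + t + k))
    (fun k hk i hi j hj h => g3 i hi j hj (by
      have := hx.injOn (hm i hi k hk).1 (hm j hj k hk).1 h
      linarith))
    (fun k hk i hi j hj h => g4 i hi j hj (by
      have := hx.injOn (hm i hi k hk).2 (hm j hj k hk).2 h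
      linarith))
    (fun k hk i hi j hj => hx (hm i hi k hk).1 (hm j hj k hk).2 (by linarith [g2 i hi j hj]))
    (fun k k' hk hk' i hi j hj => hx (hm i hi k (by omega)).2 (hm j hj k' hk').1 (by
      have : (k : ℝ) + 1 ≤ k' := by exact_mod_cast hk
      linarith [g1 i hi, g1 j hj]))
  rw [← hmid, Finset.sum_comm]
  set v := ∑ i ∈ range t, ∑ k ∈ range (N + 2 * t),
    (e (x (P i + α i + k)) - e (x (Q i + β i + k))) with hv
  set w := ∑ i ∈ range t, ∑ k ∈ range N, (e (x (P i + t + k)) - e (x (Q i + t + k))) with hw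
  have hj : ν (v - w) ≤ 4 * t ^ 2 := by
    rw [hv, hw, ← Finset.sum_sub_distrib]
    refine (semi_sum_le _ _ _).trans ?_
    calc _ ≤ ∑ _i ∈ range t, (4 * t : ℝ) := by
          refine Finset.sum_le_sum fun i hi => ?_
          obtain ⟨a, ha, ha'⟩ := shift_aux (g5 i (Finset.mem_range.1 hi)).1
          obtain ⟨b, hb, hb'⟩ := shift_aux (g5 i (Finset.mem_range.1 hi)).2
          have e1 := junk_le (ν := ν) (fun k => e (x (P i + α i + k))) (fun k => hν.le_one _)
            N _ a ha
          have e2 := junk_le (ν := ν) (fun k => e (x (Q i + β i + k))) (fun k => hν.le_one _)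
            N _ b hb
          have r1 : ∀ k : ℕ, P i + α i + ((a + k : ℕ) : ℝ) = P i + t + k := fun k => by
            push_cast; rw [← ha']; ring
          have r2 : ∀ k : ℕ, Q i + β i + ((b + k : ℕ) : ℝ) = Q i + t + k := fun k => by
            push_cast; rw [← hb']; ring
          simp only [r1, r2] at e1 e2
          rw [Finset.sum_sub_distrib, Finset.sum_sub_distrib, sub_sub_sub_comm]
          refine (map_sub_le_add _ _ _).trans ?_
          push_cast at e1 e2
          linarith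
      _ = _ := by simp; ring
  have := map_sub_le_add ν v (v - w)
  rw [sub_sub_cancel] at this
  linarith

lemma GInv.lower2 (hν : Good θ p K ν) (hθ : 0 ≤ θ) {S : ℕ → Finset ℝ} {t : ℕ} (ht : 1 ≤ t)
    {lo hi : ℝ} {x : ℝ → ℕ} {v : V} (h : GInv S (1 + 2 * t) t lo hi x v) (hlh : hi ≤ lo + 1)
    (hx : StrictMonoOn x (S t)) : θ * t / 2 ≤ ν v := by
  obtain ⟨P, Q, α, β, g1, g2, g3, g4, g5, g6, hv⟩ := h
  have hm : ∀ i < t, P i + t ∈ S t ∧ Q i + t ∈ S t := by
    intro i hi
    obtain ⟨a, ha, ha'⟩ := shift_aux (g5 i hi).1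
    obtain ⟨b, hb, hb'⟩ := shift_aux (g5 i hi).2
    have e1 := (g6 i hi a (by omega)).1
    have e2 := (g6 i hi b (by omega)).2
    rw [add_assoc, ha'] at e1
    rw [add_assoc, hb'] at e2
    exact ⟨e1, e2⟩
  have hne : (range t).Nonempty := Finset.nonempty_range_iff.2 (by omega)
  obtain ⟨iP, hiP, hP⟩ := Finset.exists_max_image (range t) P hne
  obtain ⟨iQ, hiQ, hQ⟩ := Finset.exists_max_image (range t) Q hne
  simp only [Finset.mem_range] at hiP hiQ hP hQ
  have hT : ∀ c ∈ S t, ∀ u ∈ S t, tl (x c + 1) (e (x u)) = if c < u then 1 else 0 := by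
    intro c hc u hu
    rw [tl_e]
    simp only [Nat.succ_le_iff, hx.lt_iff_lt hc hu]
  have key : tl (x (Q iQ + t) + 1) v - tl (x (P iP + t) + 1) v = t := by
    rw [hv]
    simp only [map_sum, ← Finset.sum_sub_distrib]
    calc _ = ∑ _i ∈ range t, (1 : ℝ) := by
          refine Finset.sum_congr rfl fun i hi => ?_
          have hi := Finset.mem_range.1 hi
          obtain ⟨b, hb, hb'⟩ := shift_aux (g5 i hi).2
          rw [Finset.sum_congr rfl (g := fun k => if k = b then (1 : ℝ) else 0)]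
          · rw [Finset.sum_ite_eq', if_pos (Finset.mem_range.2 (by omega))]
          intro k hk
          have hk := Finset.mem_range.1 hk
          have m1 := (g6 i hi k hk).1
          have m2 := (g6 i hi k hk).2
          rw [map_sub, map_sub, hT _ (hm _ hiQ).2 _ m1, hT _ (hm _ hiQ).2 _ m2,
            hT _ (hm _ hiP).1 _ m1, hT _ (hm _ hiP).1 _ m2]
          have a1 := hP i hi
          have a2 := hQ i hi
          have a3 := g1 i hi
          have a4 := g1 iP hiP
          have a5 := g1 iQ hiQ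
          have a6 := g2 iP hiP iQ hiQ
          have a7 := g2 iP hiP i hi
          have a8 := g2 i hi i hi
          have z1 : (if Q iQ + t < P i + α i + k then (1 : ℝ) else 0) =
              if P iP + t < P i + α i + k then (1 : ℝ) else 0 := by
            rcases le_or_gt (α i + k) t with h | h
            · have : (α i : ℝ) + k ≤ t := by exact_mod_cast h
              rw [if_neg (by linarith), if_neg (by linarith)]
            · have : (t : ℝ) + 1 ≤ α i + k := by exact_mod_cast h
              rw [if_pos (by linarith), if_pos (by linarith)]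
          rw [z1]
          rcases lt_trichotomy k b with h | h | h
          · have : (k : ℝ) + 1 ≤ b := by exact_mod_cast h
            rw [if_neg (show ¬ Q iQ + t < Q i + β i + k by linarith),
              if_neg (show ¬ P iP + t < Q i + β i + k by linarith), if_neg h.ne]
            ring
          · subst h
            rw [if_neg (show ¬ Q iQ + t < Q i + β i + k by linarith),
              if_pos (show P iP + t < Q i + β i + k by linarith), if_pos rfl]
            ring
          · have : (b : ℝ) + 1 ≤ k := by exact_mod_cast h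
            rw [if_pos (show Q iQ + t < Q i + β i + k by linarith),
              if_pos (show P iP + t < Q i + β i + k by linarith), if_neg h.ne']
            ring
      _ = t := by simp
  have e1 := hν.tail (x (Q iQ + t) + 1) v
  have e2 := hν.tail (x (P iP + t) + 1) v
  have e3 := le_abs_self (tl (x (Q iQ + t) + 1) v)
  have e4 := neg_le_abs (tl (x (P iP + t) + 1) v)
  nlinarith

end Crest.Agent.H3MT
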