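import Mathlib

set_option autoImplicit false

namespace Crest.Agent.H3MT

open Filter Topology

/-- iterated ultrafilter on finite tuples -/
noncomputable def UV : (k : ℕ) → Ultrafilter (Fin k → ℕ)
  | 0 => pure Fin.elim0
  | k + 1 => (hyperfilter ℕ).bind fun a => (UV k).map (fun x => Fin.cons a x)

/-- iterated ultrafilter on sequences -/
noncomputable def UW : ℕ → Ultrafilter (ℕ → ℕ)
  | 0 => pure 0
  | m + 1 => (hyperfilter ℕ).bind fun a => (UW m).map (fun X i => Nat.casesOn i a X)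

lemma umap_bind {α β γ : Type} (F : Ultrafilter α) (g : α → Ultrafilter β) (h : β → γ) :
    (F.bind g).map h = F.bind fun a => (g a).map h := by
  apply Ultrafilter.coe_injective
  ext s
  simp [Ultrafilter.bind, Filter.mem_map]
  rfl

lemma ubind_congr {α β : Type} (F : Ultrafilter α) (g : α → Ultrafilter β) (G : Ultrafilter β)
    (h : ∀ᶠ a in (F : Filter α), g a = G) : F.bind g = G := by
  apply Ultrafilter.ext
  intro s
  have : s ∈ F.bind g ↔ ∀ᶠ a in (F : Filter α), s ∈ g a := by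
    simp [Ultrafilter.bind, ← Ultrafilter.mem_coe]
    rfl
  rw [this]
  constructor
  · intro h1
    obtain ⟨a, ha1, ha2⟩ := (h.and h1).exists
    rwa [ha1] at ha2
  · intro h1
    filter_upwards [h] with a ha
    rwa [ha]

lemma ueq_of_unique {α : Type} [Subsingleton α] (F G : Ultrafilter α) : F = G := by
  obtain ⟨a, rfl⟩ := Ultrafilter.eq_pure_of_finite F
  obtain ⟨b, rfl⟩ := Ultrafilter.eq_pure_of_finite G
  rw [Subsingleton.elim a b]

lemma UW_map (m : ℕ) : ∀ (k : ℕ) (ι : Fin k → ℕ), StrictMono ι → (∀ i, ι i < m) →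
    (UW m).map (fun X => X ∘ ι) = UV k := by
  induction m with
  | zero =>
    intro k ι _ h
    rcases k with _ | k
    · exact ueq_of_unique _ _
    · exact absurd (h 0) (Nat.not_lt_zero _)
  | succ m ih =>
    intro k ι hι h
    rcases k with _ | k
    · exact ueq_of_unique _ _
    rw [UW, umap_bind]
    by_cases h0 : ι 0 = 0
    · have hpos : ∀ i : Fin k, 0 < ι i.succ := fun i => h0 ▸ hι (Fin.succ_pos i)
      have hι' : StrictMono fun i : Fin k => ι i.succ - 1 := fun i j hij => by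
        have := hι (Fin.succ_lt_succ_iff.2 hij)
        have := hpos i
        simp only
        omega
      have := ih k (fun i => ι i.succ - 1) hι' fun i => by
        have := h i.succ
        have := hpos i
        omega
      rw [UV]
      congr 1
      funext a
      rw [← this, Ultrafilter.map_map, Ultrafilter.map_map]
      congr 1
      funext X i
      refine Fin.cases ?_ (fun i => ?_) i
      · simp [h0]
      · obtain ⟨l, hl⟩ := Nat.exists_eq_succ_of_ne_zero (hpos i).ne'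
        simp [hl]
    · have hpos : ∀ i : Fin (k + 1), 0 < ι i := fun i =>
        lt_of_lt_of_le (Nat.pos_of_ne_zero h0) (hι.monotone (Fin.zero_le i))
      have hι' : StrictMono fun i => ι i - 1 := fun i j hij => by
        have := hι hij
        have := hpos i
        simp only
        omega
      have := ih (k + 1) (fun i => ι i - 1) hι' fun i => by
        have := h i
        have := hpos i
        omega
      refine ubind_congr _ _ _ (Eventually.of_forall fun a => ?_)
      rw [← this, Ultrafilter.map_map]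
      congr 1
      funext X i
      obtain ⟨l, hl⟩ := Nat.exists_eq_succ_of_ne_zero (hpos i).ne'
      simp [hl]

/-- the spreading-invariant ultrafilter on sequences -/
noncomputable def WW : Ultrafilter (ℕ → ℕ) := (hyperfilter ℕ).bind UW

lemma hyper_le_atTop : (hyperfilter ℕ : Filter ℕ) ≤ atTop := by
  rw [← Nat.cofinite_eq_atTop]; exact hyperfilter_le_cofinite

lemma WW_map_fin (k : ℕ) (ι : Fin k → ℕ) (hι : StrictMono ι) :
    WW.map (fun X => X ∘ ι) = UV k := by
  rw [WW, umap_bind]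
  refine ubind_congr _ _ _ (hyper_le_atTop ?_)
  have : ∀ᶠ m in atTop, ∀ i, ι i < m :=
    eventually_all.2 fun i => eventually_gt_atTop _
  filter_upwards [this] with m hm using UW_map m k ι hι hm

lemma WW_map {S : Type} [Fintype S] [LinearOrder S] {ι ι' : S → ℕ} (hι : StrictMono ι)
    (hι' : StrictMono ι') : WW.map (fun X => X ∘ ι) = WW.map (fun X => X ∘ ι') := by
  set φ := monoEquivOfFin S rfl
  have key : ∀ ι : S → ℕ, StrictMono ι → WW.map (fun X => X ∘ ι) =
      (UV (Fintype.card S)).map (fun x => x ∘ φ.symm) := by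
    intro ι hι
    rw [← WW_map_fin _ (ι ∘ φ) (hι.comp φ.strictMono), Ultrafilter.map_map]
    congr 1
    funext X s
    simp
  rw [key ι hι, key ι' hι']

lemma WW_lt {i j : ℕ} (hij : i < j) : ∀ᶠ X in (WW : Filter (ℕ → ℕ)), X i < X j := by
  have hι : StrictMono ![i, j] := by
    intro a b hab
    fin_cases a <;> fin_cases b <;> simp_all
  have h1 := WW_map_fin 2 _ hι
  have h2 : {x : Fin 2 → ℕ | x 0 < x 1} ∈ UV 2 := by
    simp only [UV, Ultrafilter.bind, ← Ultrafilter.mem_coe]
    change _ ∈ Filter.bind _ _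
    rw [Filter.mem_bind']
    refine Eventually.of_forall fun a => ?_
    change _ ∈ Filter.map _ (Filter.bind _ _)
    rw [Filter.mem_map, Filter.mem_bind']
    refine hyper_le_atTop ?_
    filter_upwards [eventually_gt_atTop a] with b hb
    change _ ∈ Filter.map _ (pure _)
    simpa using hb
  rw [← h1] at h2
  exact h2

lemma WW_strictMono {S : Type} [Finite S] [LinearOrder S] {ι : S → ℕ} (hι : StrictMono ι) :
    ∀ᶠ X in (WW : Filter (ℕ → ℕ)), StrictMono (X ∘ ι) := by
  have : ∀ᶠ X in (WW : Filter (ℕ → ℕ)), ∀ s s', s < s' → X (ι s) < X (ι s') := by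
    refine eventually_all.2 fun s => eventually_all.2 fun s' => ?_
    by_cases h : s < s'
    · filter_upwards [WW_lt (hι h)] with X hX _ using hX
    · exact Eventually.of_forall fun X h' => absurd h' h
  filter_upwards [this] with X hX s s' h using hX s s' h

lemma exists_ulim {α : Type*} (F : Ultrafilter α) (f : α → ℝ) (C : ℝ) (h : ∀ a, |f a| ≤ C) :
    ∃ l, Tendsto f F (𝓝 l) := by
  have hc : IsCompact (Set.Icc (-C) C) := isCompact_Icc
  obtain ⟨l, _, hl⟩ := hc.ultrafilter_le_nhds (F.map f) (by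
    rw [Ultrafilter.coe_map, le_principal_iff, mem_map]
    exact Eventually.of_forall fun a => abs_le.1 (h a))
  exact ⟨l, hl⟩

theorem exists_model_aux {S J : Type} [Fintype S] [LinearOrder S] [Fintype J] {ι₀ : S → ℕ}
    {ι : J → S → ℕ} (h₀ : StrictMono ι₀) (h : ∀ j, StrictMono (ι j)) {δ : ℝ} (hδ : 0 < δ)
    {E : Type} [NormedAddCommGroup E] [NormedSpace ℝ E] (ev : (S → ℕ) → E)
    (hev : ∀ u, ‖ev u‖ ≤ 1) :
    ∃ (A : Type) (_ : Fintype A) (m : A → ℝ) (X : A → ℕ → ℕ), (∀ a, 0 ≤ m a) ∧ ∑ a, m a = 1 ∧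
      (∀ a, StrictMono (X a ∘ ι₀) ∧ ∀ j, StrictMono (X a ∘ ι j)) ∧
      ∀ j, ‖∑ a, m a • (ev (X a ∘ ι₀) - ev (X a ∘ ι j))‖ ≤ δ := by
  classical
  let v : (ℕ → ℕ) → (J → E) := fun X j => ev (X ∘ ι₀) - ev (X ∘ ι j)
  let G : Set (ℕ → ℕ) := {X | StrictMono (X ∘ ι₀) ∧ ∀ j, StrictMono (X ∘ ι j)}
  have hG : ∀ᶠ X in (WW : Filter (ℕ → ℕ)), X ∈ G :=
    (WW_strictMono h₀).and (eventually_all.2 fun j => WW_strictMono (h j))
  have hcl : (0 : J → E) ∈ closure (convexHull ℝ (v '' G)) := by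
    by_contra hnot
    obtain ⟨φ, u, hu0, hu⟩ := geometric_hahn_banach_point_closed
      (convex_convexHull ℝ (v '' G)).closure isClosed_closure hnot
    rw [map_zero] at hu0
    let f : J → (S → ℕ) → ℝ := fun j x => φ (Pi.single j (ev x))
    have hf : ∀ j x, |f j x| ≤ ‖φ‖ := fun j x => by
      have := φ.le_opNorm (Pi.single j (ev x))
      rw [Pi.norm_single] at this
      exact this.trans (mul_le_of_le_one_right (norm_nonneg _) (hev x))
    have hφ : ∀ X, φ (v X) = ∑ j, (f j (X ∘ ι₀) - f j (X ∘ ι j)) := fun X => by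
      have : v X = ∑ j, Pi.single j (v X j) := (Finset.univ_sum_single _).symm
      rw [this, map_sum]
      refine Finset.sum_congr rfl fun j _ => ?_
      simp only [v, f]
      rw [← map_sub, ← Pi.single_sub]
    have hlim : Tendsto (fun X => φ (v X)) WW (𝓝 0) := by
      simp only [hφ]
      rw [show (0 : ℝ) = ∑ _j : J, (0 : ℝ) by simp]
      refine tendsto_finsetSum _ fun j _ => ?_
      obtain ⟨l, hl⟩ := exists_ulim (WW.map (fun X => X ∘ ι₀)) (f j) _ (hf j)
      have hl' := hl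
      rw [WW_map h₀ (h j)] at hl'
      rw [Ultrafilter.coe_map, tendsto_map'_iff] at hl hl'
      simpa using hl.sub hl'
    obtain ⟨X, hX1, hX2⟩ := (hG.and (hlim.eventually (gt_mem_nhds hu0))).exists
    exact lt_asymm hX2 (hu _ (subset_closure (subset_convexHull ℝ _ ⟨X, hX1, rfl⟩)))
  obtain ⟨z, hz, hzδ⟩ := Metric.mem_closure_iff.1 hcl δ hδ
  obtain ⟨A, _, m, zz, hm0, hm1, hzz, hsum⟩ := mem_convexHull_iff_exists_fintype.1 hz
  choose X hXG hX using hzz
  refine ⟨A, inferInstance, m, X, hm0, hm1, hXG, fun j => ?_⟩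
  have e1 : z j = ∑ a, m a • (ev (X a ∘ ι₀) - ev (X a ∘ ι j)) := by
    rw [← hsum]
    simp only [Finset.sum_apply, ← hX]
    rfl
  rw [← e1]
  have e3 : ‖z j‖ ≤ ‖z‖ := norm_le_pi_norm z j
  rw [dist_comm, dist_zero_right] at hzδ
  linarith

/-- Finite approximate models (Ramsey plus Hahn-Banach). -/
theorem exists_model {S J : Type} [Fintype S] [LinearOrder S] [Fintype J] {ι₀ : S → ℕ}
    {ι : J → S → ℕ} (h₀ : StrictMono ι₀) (h : ∀ j, StrictMono (ι j)) {δ : ℝ} (hδ : 0 < δ) :
    ∃ (A : Type) (_ : Fintype A) (m : A → ℝ) (X : A → ℕ → ℕ), (∀ a, 0 ≤ m a) ∧ ∑ a, m a = 1 ∧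
      (∀ a, StrictMono (X a ∘ ι₀) ∧ ∀ j, StrictMono (X a ∘ ι j)) ∧
      ∀ (H : (S → ℕ) → ℝ), (∀ u, |H u| ≤ 1) → ∀ j,
        |∑ a, m a * H (X a ∘ ι₀) - ∑ a, m a * H (X a ∘ ι j)| ≤ δ := by
  let T := BoundedContinuousFunction (S → ℕ) ℝ
  let ev : (S → ℕ) → (T →L[ℝ] ℝ) := fun u => BoundedContinuousFunction.evalCLM ℝ u
  have hev : ∀ u, ‖ev u‖ ≤ 1 := fun u => by
    refine ContinuousLinearMap.opNorm_le_bound _ zero_le_one fun f => ?_
    rw [one_mul]
    exact f.norm_coe_le_norm u
  obtain ⟨A, _, m, X, hm0, hm1, hXG, hz⟩ := exists_model_aux h₀ h hδ ev hev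
  refine ⟨A, inferInstance, m, X, hm0, hm1, hXG, fun H hH j => ?_⟩
  let Hb : T := BoundedContinuousFunction.ofNormedAddCommGroupDiscrete H 1 hH
  have hHb : ‖Hb‖ ≤ 1 := (BoundedContinuousFunction.norm_le zero_le_one).2 hH
  have e1 : (∑ a, m a • (ev (X a ∘ ι₀) - ev (X a ∘ ι j))) Hb =
      ∑ a, m a * H (X a ∘ ι₀) - ∑ a, m a * H (X a ∘ ι j) := by
    rw [← Finset.sum_sub_distrib, ContinuousLinearMap.sum_apply]
    refine Finset.sum_congr rfl fun a _ => ?_
    rw [← mul_sub]
    rfl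
  rw [← e1]
  have e2 := (∑ a, m a • (ev (X a ∘ ι₀) - ev (X a ∘ ι j))).le_opNorm Hb
  refine e2.trans ?_
  calc _ ≤ δ * 1 := by gcongr; exact hz j
    _ = δ := mul_one _

end Crest.Agent.H3MT
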