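import Crest.Agent.H3MT.James
import Crest.Agent.H3MT.Ultra

set_option autoImplicit false

namespace Crest.Agent.H3MT

open Crest.AnalysisR Filter Topology Finset

abbrev V := ℕ →₀ ℝ

noncomputable def e (i : ℕ) : V := Finsupp.single i 1

noncomputable def tl (k : ℕ) : V →ₗ[ℝ] ℝ :=
  Finsupp.linearCombination ℝ (fun i => if k ≤ i then (1 : ℝ) else 0)

@[simp] lemma tl_e (k i : ℕ) : tl k (e i) = if k ≤ i then (1 : ℝ) else 0 := by
  simp [tl, e]

/-- Markov type for a function on the space of finitely supported sequences. -/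
def MT (N : V → ℝ) (p K : ℝ) : Prop :=
  ∀ (S : Type) [Fintype S] [DecidableEq S] (w : S → ℝ) (P : Matrix S S ℝ),
    (∀ i, 0 ≤ w i) → ∑ i, w i = 1 → (∀ i j, 0 ≤ P i j) → (∀ i, ∑ j, P i j = 1) →
    (∀ i j, w i * P i j = w j * P j i) →
    ∀ (f : S → V) (t : ℕ), 1 ≤ t →
      ∑ i, ∑ j, w i * (P ^ t) i j * N (f j - f i) ^ p ≤
        K ^ p * t * ∑ i, ∑ j, w i * P i j * N (f j - f i) ^ p

lemma MT.comp {N : V → ℝ} {p K : ℝ} (h : MT N p K) (L : V →ₗ[ℝ] V) :
    MT (fun a => N (L a)) p K := by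
  intro S _ _ w P h1 h2 h3 h4 h5 f t ht
  simpa only [map_sub] using h S w P h1 h2 h3 h4 h5 (fun s => L (f s)) t ht

lemma MT.lim {α : Type} {F : Filter α} [F.NeBot] {N : α → V → ℝ} {ν : V → ℝ} {p K : ℝ}
    (hp : 0 ≤ p) (h : ∀ a, MT (N a) p K) (hl : ∀ v, Tendsto (fun a => N a v) F (𝓝 (ν v))) :
    MT ν p K := by
  intro S _ _ w P h1 h2 h3 h4 h5 f t ht
  refine le_of_tendsto_of_tendsto' (b := F) ?_ ?_ fun a => h a S w P h1 h2 h3 h4 h5 f t ht
  · exact tendsto_finsetSum _ fun i _ => tendsto_finsetSum _ fun j _ =>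
      ((hl _).rpow_const (Or.inr hp)).const_mul _
  · exact (tendsto_finsetSum _ fun i _ => tendsto_finsetSum _ fun j _ =>
      ((hl _).rpow_const (Or.inr hp)).const_mul _).const_mul _

lemma semi_sum_le {ι : Type*} (ν : Seminorm ℝ V) (s : Finset ι) (f : ι → V) :
    ν (∑ i ∈ s, f i) ≤ ∑ i ∈ s, ν (f i) :=
  Finset.le_sum_of_subadditive ν (map_zero ν).le (map_add_le_add ν) s f

lemma eq_sum_e (a : V) : a = ∑ i ∈ a.support, a i • e i := by
  conv_lhs => rw [← a.sum_single]
  simp [Finsupp.sum, e]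

lemma semi_bound (ν : Seminorm ℝ V) (h : ∀ i, ν (e i) ≤ 1) (a : V) :
    ν a ≤ ∑ i ∈ a.support, |a i| := by
  conv_lhs => rw [eq_sum_e a]
  refine (semi_sum_le ν _ _).trans (Finset.sum_le_sum fun i _ => ?_)
  rw [map_smul_eq_mul, Real.norm_eq_abs]
  exact mul_le_of_le_one_right (abs_nonneg _) (h i)

lemma exists_lim_seminorm {α : Type} (F : Ultrafilter α) (N : α → Seminorm ℝ V)
    (h : ∀ a i, N a (e i) ≤ 1) :
    ∃ ν : Seminorm ℝ V, ∀ v, Tendsto (fun a => N a v) F (𝓝 (ν v)) := by
  have := fun v : V => exists_ulim F (fun a => N a v) (∑ i ∈ v.support, |v i|) fun a => by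
    rw [abs_of_nonneg (apply_nonneg _ _)]
    exact semi_bound _ (h a) v
  choose l hl using this
  refine ⟨Seminorm.of l (fun x y => ?_) (fun c x => ?_), hl⟩
  · exact le_of_tendsto_of_tendsto' (hl (x + y)) ((hl x).add (hl y))
      fun a => map_add_le_add _ _ _
  · refine tendsto_nhds_unique (hl (c • x)) ?_
    simpa only [map_smul_eq_mul] using (hl x).const_mul ‖c‖

/-- Spreading invariant seminorms of Markov type `p` dominating the tail sums. -/
structure Good (θ p K : ℝ) (ν : Seminorm ℝ V) : Prop where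
  le_one : ∀ i, ν (e i) ≤ 1
  tail : ∀ k a, θ * |tl k a| ≤ ν a
  spread : ∀ (S : Type) [Fintype S] [LinearOrder S] (c : S → ℝ) (x x' : S → ℕ),
    StrictMono x → StrictMono x' → ν (∑ s, c s • e (x s)) = ν (∑ s, c s • e (x' s))
  mt : MT ν p K

variable {X : Type*} [NormedAddCommGroup X] [NormedSpace ℝ X]

lemma stage_zero {p K : ℝ} (hp : 1 < p) (hX : HasMarkovType X p K) {η : ℝ} {n : ℕ} {x : X}
    (h : Str η n x (1 / 2)) : ∃ N : Seminorm ℝ V, (∀ i, N (e i) ≤ 1) ∧ MT N p K ∧
      ∀ k (a : V), a.support ⊆ range n → η / 8 * |tl k a| ≤ N a := by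
  obtain ⟨ι, _, w, y, h1, h2, h3, -, h5⟩ := h
  have hp0 : 0 < p := by linarith
  let q : ENNReal := ENNReal.ofReal p
  have hq : q.toReal = p := ENNReal.toReal_ofReal hp0.le
  have : Fact (1 ≤ q) := ⟨by simpa [q] using hp.le⟩
  let L : ι → V →ₗ[ℝ] X := fun ω => Finsupp.linearCombination ℝ fun i => (1 / 2 : ℝ) • y i ω
  let T : V →ₗ[ℝ] PiLp q (fun _ : ι => X) :=
    (WithLp.linearEquiv q ℝ (ι → X)).symm.toLinearMap ∘ₗ
      LinearMap.pi fun ω => (w ω) ^ (1 / p) • L ω
  let N : Seminorm ℝ V := (normSeminorm ℝ _).comp T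
  have hN : ∀ a, N a = (∑ ω, w ω * ‖L ω a‖ ^ p) ^ (1 / p) := by
    intro a
    change ‖T a‖ = _
    rw [PiLp.norm_eq_sum (by rw [hq]; exact hp0), hq]
    congr 1
    refine Finset.sum_congr rfl fun ω _ => ?_
    change ‖(w ω) ^ (1 / p) • L ω a‖ ^ p = _
    rw [norm_smul, Real.norm_of_nonneg (Real.rpow_nonneg (h1 ω) _),
      Real.mul_rpow (Real.rpow_nonneg (h1 ω) _) (norm_nonneg _), ← Real.rpow_mul (h1 ω),
      one_div_mul_cancel hp0.ne', Real.rpow_one]
  have hnn : ∀ a, 0 ≤ ∑ ω, w ω * ‖L ω a‖ ^ p := fun a =>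
    Finset.sum_nonneg fun ω _ => mul_nonneg (h1 ω) (Real.rpow_nonneg (norm_nonneg _) _)
  have hNp : ∀ a, N a ^ p = ∑ ω, w ω * ‖L ω a‖ ^ p := by
    intro a
    rw [hN, ← Real.rpow_mul (hnn a), one_div_mul_cancel hp0.ne', Real.rpow_one]
  refine ⟨N, fun i => ?_, ?_, fun k a ha => ?_⟩
  · rw [hN]
    refine Real.rpow_le_one (hnn _) ?_ (by positivity)
    rw [← h2]
    refine Finset.sum_le_sum fun ω _ => mul_le_of_le_one_right (h1 ω) ?_
    refine Real.rpow_le_one (norm_nonneg _) ?_ hp0.le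
    have := h3 i ω
    simp only [L, e, Finsupp.linearCombination_single, one_smul, norm_smul]
    norm_num
    linarith
  · intro S _ _ π P g1 g2 g3 g4 g5 f t ht
    simp only [hNp, Finset.mul_sum]
    have sw : ∀ G : S → S → ι → ℝ, ∑ i, ∑ j, ∑ ω, G i j ω = ∑ ω, ∑ i, ∑ j, G i j ω := by
      intro G
      rw [Finset.sum_comm (s := Finset.univ (α := ι))]
      exact Finset.sum_congr rfl fun i _ => Finset.sum_comm
    rw [sw, sw]
    refine Finset.sum_le_sum fun ω _ => ?_
    have := mul_le_mul_of_nonneg_left (hX S π P g1 g2 g3 g4 g5 (fun s => L ω (f s)) t ht) (h1 ω)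
    simp only [Finset.mul_sum, ← map_sub] at this
    convert this using 3 <;> ring
  · have e1 := h5 k 0 (fun i => a i / 2)
    have e2 : ∀ ω, (0 : X) + ∑ i ∈ range n, (a i / 2) • y i ω = L ω a := by
      intro ω
      simp only [L, zero_add, Finsupp.linearCombination_apply]
      rw [Finsupp.sum_of_support_subset _ ha _ (by simp)]
      refine Finset.sum_congr rfl fun i _ => ?_
      rw [smul_smul]; congr 1; ring
    have e3 : (∑ i ∈ range n, if k ≤ i then a i / 2 else 0) = tl k a / 2 := by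
      simp only [tl, Finsupp.linearCombination_apply]
      rw [Finsupp.sum_of_support_subset _ ha _ (by simp), Finset.sum_div]
      refine Finset.sum_congr rfl fun i _ => ?_
      split_ifs <;> simp
    simp only [e2, e3] at e1
    have e4 : ∑ ω, w ω * ‖L ω a‖ ≤ N a := by
      rw [hN]
      exact Real.arith_mean_le_rpow_mean Finset.univ w _ (fun ω _ => h1 ω) h2
        (fun ω _ => norm_nonneg _) hp.le
    rw [abs_div, abs_two] at e1
    linarith

lemma mapDomain_e (Y : ℕ → ℕ) (i : ℕ) : Finsupp.lmapDomain ℝ ℝ Y (e i) = e (Y i) := by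
  simp [e]

theorem exists_good {p K : ℝ} (hp : 1 < p) (hX : HasMarkovType X p K)
    (h : ¬ HasEquivUniformlyConvexNorm X) : ∃ θ : ℝ, 0 < θ ∧ ∃ ν, Good θ p K ν := by
  obtain ⟨η, hη, hn⟩ := james_of_not_renorm h
  have := fun n => (hn n).elim fun x hx => stage_zero hp hX hx
  choose N hN1 hN2 hN3 using this
  obtain ⟨ν₁, hν₁⟩ := exists_lim_seminorm (hyperfilter ℕ) N hN1
  have a1 : ∀ i, ν₁ (e i) ≤ 1 := fun i => le_of_tendsto' (hν₁ _) fun n => hN1 n i
  have a2 : MT ν₁ p K := MT.lim (by linarith) hN2 hν₁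
  have a3 : ∀ k a, η / 8 * |tl k a| ≤ ν₁ a := fun k a => by
    refine ge_of_tendsto (hν₁ a) (hyper_le_atTop ?_)
    filter_upwards [eventually_gt_atTop (a.support.sup id)] with n hn
    refine hN3 n k a fun i hi => Finset.mem_range.2 ?_
    exact lt_of_le_of_lt (Finset.le_sup (f := id) hi) hn
  obtain ⟨ν, hν⟩ := exists_lim_seminorm WW (fun Y => ν₁.comp (Finsupp.lmapDomain ℝ ℝ Y))
    fun Y i => by rw [Seminorm.comp_apply, mapDomain_e]; exact a1 _
  refine ⟨η / 8, by positivity, ν, fun i => ?_, fun k a => ?_, fun S _ _ c x x' hx hx' => ?_, ?_⟩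
  · exact le_of_tendsto' (hν _) fun Y => by rw [Seminorm.comp_apply, mapDomain_e]; exact a1 _
  · refine ge_of_tendsto (hν a) ?_
    have : ∀ᶠ Y in (WW : Filter (ℕ → ℕ)), ∀ i ∈ a.support, (k ≤ i ↔ Y k ≤ Y i) := by
      refine (eventually_all_finset _).2 fun i _ => ?_
      rcases lt_trichotomy k i with hki | rfl | hki
      · filter_upwards [WW_lt hki] with Y hY using ⟨fun _ => hY.le, fun _ => hki.le⟩
      · exact Eventually.of_forall fun Y => by simp
      · filter_upwards [WW_lt hki] with Y hY using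
          ⟨fun h => absurd h (not_le.2 hki), fun h => absurd h (not_le.2 hY)⟩
    filter_upwards [this] with Y hY
    have e1 : tl k a = tl (Y k) (Finsupp.lmapDomain ℝ ℝ Y a) := by
      conv_lhs => rw [eq_sum_e a]
      conv_rhs => rw [eq_sum_e a]
      simp only [map_sum, map_smul, mapDomain_e, tl_e]
      exact Finset.sum_congr rfl fun i hi => by simp only [hY i hi]
    rw [e1]
    exact a3 _ _
  · have key : ∀ x : S → ℕ, Tendsto (fun u : S → ℕ => ν₁ (∑ s, c s • e (u s)))
        (WW.map (fun Y => Y ∘ x)) (𝓝 (ν (∑ s, c s • e (x s)))) := by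
      intro x
      rw [Ultrafilter.coe_map, tendsto_map'_iff]
      refine (hν _).congr fun Y => ?_
      simp only [Seminorm.comp_apply, map_sum, map_smul, mapDomain_e, Function.comp]
    have k1 := key x
    rw [WW_map hx hx'] at k1
    exact tendsto_nhds_unique k1 (key x')
  · exact MT.lim (F := (WW : Filter (ℕ → ℕ))) (by linarith)
      (fun Y => a2.comp (Finsupp.lmapDomain ℝ ℝ Y)) (fun v => hν v)

/-- the blow-up map -/
noncomputable def blow (t : ℕ) : V →ₗ[ℝ] V :=
  Finsupp.linearCombination ℝ fun i => (1 / t : ℝ) • ∑ l : Fin t, e (t * i + l)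

lemma blow_e (t i : ℕ) : blow t (e i) = (1 / t : ℝ) • ∑ l : Fin t, e (t * i + l) := by
  simp [blow, e]

lemma Good.blow {θ p K : ℝ} {ν : Seminorm ℝ V} (h : Good θ p K ν) {t : ℕ} (ht : 0 < t) :
    Good θ p K (ν.comp (blow t)) := by
  have ht' : (0 : ℝ) < t := by exact_mod_cast ht
  refine ⟨fun i => ?_, fun k a => ?_, fun S _ _ c x x' hx hx' => ?_, h.mt.comp _⟩
  · rw [Seminorm.comp_apply, blow_e, map_smul_eq_mul, Real.norm_of_nonneg (by positivity)]
    have := (semi_sum_le ν _ _).trans (Finset.sum_le_sum (s := univ)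
      fun (l : Fin t) _ => h.le_one (t * i + l))
    simp only [Finset.sum_const, Finset.card_univ, Fintype.card_fin, nsmul_eq_mul,
      mul_one] at this
    rw [one_div, inv_mul_le_iff₀ ht']
    linarith
  · have : tl k a = tl (t * k) (H3MT.blow t a) := by
      have : tl k = (tl (t * k)) ∘ₗ H3MT.blow t := by
        refine Finsupp.lhom_ext' fun i => LinearMap.ext_ring ?_
        change tl k (e i) = tl (t * k) (H3MT.blow t (e i))
        rw [blow_e, map_smul, map_sum]
        simp only [tl_e]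
        by_cases hk : k ≤ i
        · have : ∀ l : Fin t, t * k ≤ t * i + l := fun l =>
            (Nat.mul_le_mul_left t hk).trans (Nat.le_add_right _ _)
          simp [this, hk, ht.ne']
        · have : ∀ l : Fin t, ¬ t * k ≤ t * i + l := fun l => by
            have := l.2
            have : t * (i + 1) ≤ t * k := Nat.mul_le_mul_left t (by omega)
            rw [Nat.mul_add] at this
            omega
          simp [this, hk]
      rw [this]; rfl
    rw [this]
    exact h.tail _ _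
  · have key : ∀ x : S → ℕ, H3MT.blow t (∑ s, c s • e (x s)) =
        ∑ u : S ×ₗ Fin t, (c (ofLex u).1 / t) • e (t * x (ofLex u).1 + (ofLex u).2) := by
      intro x
      rw [map_sum]
      simp only [map_smul, blow_e]
      rw [← (toLex (α := S × Fin t)).sum_comp, Fintype.sum_prod_type]
      refine Finset.sum_congr rfl fun s _ => ?_
      simp only [ofLex_toLex, smul_smul, Finset.smul_sum]
      refine Finset.sum_congr rfl fun l _ => ?_
      congr 1; ring
    have mono : ∀ x : S → ℕ, StrictMono x →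
        StrictMono fun u : S ×ₗ Fin t => t * x (ofLex u).1 + (ofLex u).2 := by
      intro x hx u v huv
      rcases Prod.Lex.lt_iff.1 huv with h1 | ⟨h1, h2⟩
      · have := Nat.mul_le_mul_left t (Nat.succ_le_of_lt (hx h1))
        have := (ofLex u).2.2
        rw [Nat.mul_succ] at *
        simp only
        omega
      · simp only [h1]
        have : ((ofLex u).2 : ℕ) < (ofLex v).2 := h2
        omega
    simp only [Seminorm.comp_apply, key]
    exact h.spread _ _ _ _ (mono x hx) (mono x' hx')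

end Crest.Agent.H3MT
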