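import Crest.Agent.H3MT.Renorm

set_option autoImplicit false

namespace Crest.Agent.H3MT

open Crest.AnalysisR Metric Finset

variable {X : Type*} [NormedAddCommGroup X] [NormedSpace ℝ X]

/-- A random sequence in the ball of radius two with barycentre `x` and James type lower bounds. -/
def Str (η : ℝ) (n : ℕ) (x : X) (ρ : ℝ) : Prop :=
  ∃ (ι : Type) (_ : Fintype ι) (w : ι → ℝ) (y : ℕ → ι → X), (∀ ω, 0 ≤ w ω) ∧ ∑ ω, w ω = 1 ∧
    (∀ i ω, ‖y i ω‖ ≤ 2) ∧ (∀ i, ∑ ω, w ω • y i ω = x) ∧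
    ∀ (k : ℕ) (c : X) (a : ℕ → ℝ), ρ * (η / 2) * |∑ i ∈ range n, if k ≤ i then a i else 0| ≤
      ∑ ω, w ω * ‖c + ∑ i ∈ range n, a i • y i ω‖

lemma Str.const (η : ℝ) (n : ℕ) {x : X} (hx : ‖x‖ ≤ 2) : Str η n x 0 :=
  ⟨Unit, inferInstance, fun _ => 1, fun _ _ => x, fun _ => zero_le_one, by simp, fun _ _ => hx,
    fun _ => by simp, fun k c a => by simp⟩

lemma Str.zero (η : ℝ) {x : X} (hx : ‖x‖ ≤ 2) (ρ : ℝ) : Str η 0 x ρ :=
  ⟨Unit, inferInstance, fun _ => 1, fun _ _ => x, fun _ => zero_le_one, by simp, fun _ _ => hx,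
    fun _ => by simp, fun k c a => by simp⟩

lemma Str.mono {η : ℝ} (hη : 0 ≤ η) {n : ℕ} {x : X} {ρ ρ' : ℝ} (h : Str η n x ρ) (hρ : ρ' ≤ ρ) :
    Str η n x ρ' := by
  obtain ⟨ι, _, w, y, h1, h2, h3, h4, h5⟩ := h
  refine ⟨ι, inferInstance, w, y, h1, h2, h3, h4, fun k c a => le_trans ?_ (h5 k c a)⟩
  gcongr

lemma Str.mix {η : ℝ} {n : ℕ} {x x' : X} {ρ ρ' : ℝ} (h : Str η n x ρ) (h' : Str η n x' ρ')
    {a b : ℝ} (ha : 0 ≤ a) (hb : 0 ≤ b) (hab : a + b = 1) :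
    Str η n (a • x + b • x') (a * ρ + b * ρ') := by
  obtain ⟨ι, _, w, y, h1, h2, h3, h4, h5⟩ := h
  obtain ⟨ι', _, w', y', h1', h2', h3', h4', h5'⟩ := h'
  refine ⟨ι ⊕ ι', inferInstance, Sum.elim (fun ω => a * w ω) (fun ω => b * w' ω),
    fun i => Sum.elim (y i) (y' i), ?_, ?_, ?_, ?_, ?_⟩
  · rintro (ω | ω)
    · exact mul_nonneg ha (h1 ω)
    · exact mul_nonneg hb (h1' ω)
  · simp [← Finset.mul_sum, h2, h2', hab]
  · rintro i (ω | ω)
    · exact h3 i ω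
    · exact h3' i ω
  · intro i
    simp [mul_smul, ← Finset.smul_sum, h4, h4']
  · intro k c s
    have e1 := mul_le_mul_of_nonneg_left (h5 k c s) ha
    have e2 := mul_le_mul_of_nonneg_left (h5' k c s) hb
    simp only [Fintype.sum_sum_type, Sum.elim_inl, Sum.elim_inr, mul_assoc, ← Finset.mul_sum] at *
    nlinarith

lemma jensen_aux {ι : Type} [Fintype ι] {w : ι → ℝ} (h1 : ∀ ω, 0 ≤ w ω) (h2 : ∑ ω, w ω = 1)
    {y : ℕ → ι → X} {x : X} (h4 : ∀ i, ∑ ω, w ω • y i ω = x) (n : ℕ) (c : X) (a : ℕ → ℝ) :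
    ‖c + (∑ i ∈ range n, a i) • x‖ ≤ ∑ ω, w ω * ‖c + ∑ i ∈ range n, a i • y i ω‖ := by
  have : c + (∑ i ∈ range n, a i) • x = ∑ ω, w ω • (c + ∑ i ∈ range n, a i • y i ω) := by
    simp only [smul_add, Finset.sum_add_distrib, ← Finset.sum_smul, h2, one_smul,
      Finset.smul_sum]
    rw [Finset.sum_comm, Finset.sum_smul]
    congr 1
    refine Finset.sum_congr rfl fun i _ => ?_
    rw [← h4 i, Finset.smul_sum]
    exact Finset.sum_congr rfl fun ω _ => smul_comm _ _ _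
  rw [this]
  refine (norm_sum_le _ _).trans (le_of_eq (Finset.sum_congr rfl fun ω _ => ?_))
  rw [norm_smul, Real.norm_of_nonneg (h1 ω)]

lemma Str.jump {η : ℝ} (hη : 0 ≤ η) {n : ℕ} {x x' : X} {ρ ρ' : ℝ} (h : Str η n x ρ)
    (h' : Str η n x' ρ') (hρ : ρ ≤ 1) (hρ' : ρ' ≤ 1) (hx : ‖x‖ ≤ 2) (hx' : ‖x'‖ ≤ 2)
    (hfar : η ≤ ‖x - x'‖) :
    Str η (n + 1) ((1 / 2 : ℝ) • (x + x')) ((1 / 2) * ρ + (1 / 2) * ρ') := by
  obtain ⟨ι, _, w, y, h1, h2, h3, h4, h5⟩ := h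
  obtain ⟨ι', _, w', y', h1', h2', h3', h4', h5'⟩ := h'
  refine ⟨ι ⊕ ι', inferInstance, Sum.elim (fun ω => (1 / 2) * w ω) (fun ω => (1 / 2) * w' ω),
    fun i => Nat.casesOn i (Sum.elim (fun _ => x) (fun _ => x'))
      (fun i => Sum.elim (y i) (y' i)), ?_, ?_, ?_, ?_, ?_⟩
  · rintro (ω | ω)
    · exact mul_nonneg (by norm_num) (h1 ω)
    · exact mul_nonneg (by norm_num) (h1' ω)
  · simp only [Fintype.sum_sum_type, Sum.elim_inl, Sum.elim_inr, ← Finset.mul_sum, h2, h2']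
    norm_num
  · rintro (_ | i) (ω | ω)
    · exact hx
    · exact hx'
    · exact h3 i ω
    · exact h3' i ω
  · rintro (_ | i)
    · simp only [Fintype.sum_sum_type, Sum.elim_inl, Sum.elim_inr, mul_smul, ← Finset.smul_sum,
        Nat.rec_zero, ← Finset.sum_smul, h2, h2', one_smul, smul_add]
    · simp only [Fintype.sum_sum_type, Sum.elim_inl, Sum.elim_inr, mul_smul, ← Finset.smul_sum,
        h4, h4', smul_add]
  · intro k c s
    have r1 : ∀ (u : X) (v : ℕ → X), c + (∑ i ∈ range n, s (i + 1) • v i + s 0 • u) =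
        (c + s 0 • u) + ∑ i ∈ range n, s (i + 1) • v i := fun u v => by abel
    simp only [Fintype.sum_sum_type, Sum.elim_inl, Sum.elim_inr, mul_assoc, ← Finset.mul_sum,
      Finset.sum_range_succ', Nat.rec_zero, r1]
    rcases k with _ | k
    · simp only [Nat.zero_le, if_true]
      have e1 := jensen_aux h1 h2 h4 n (c + s 0 • x) (fun i => s (i + 1))
      have e2 := jensen_aux h1' h2' h4' n (c + s 0 • x') (fun i => s (i + 1))
      set S := ∑ i ∈ range n, s (i + 1)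
      have e3 : |S + s 0| * ‖x - x'‖ ≤ ‖c + s 0 • x + S • x‖ + ‖c + s 0 • x' + S • x'‖ := by
        rw [← Real.norm_eq_abs, ← norm_smul]
        have : (S + s 0) • (x - x') = (c + s 0 • x + S • x) - (c + s 0 • x' + S • x') := by
          module
        rw [this]
        exact norm_sub_le _ _
      have e4 : |S + s 0| * η ≤ |S + s 0| * ‖x - x'‖ :=
        mul_le_mul_of_nonneg_left hfar (abs_nonneg _)
      have e5 : 0 ≤ η * |S + s 0| := mul_nonneg hη (abs_nonneg _)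
      nlinarith
    · have e1 := h5 k (c + s 0 • x) (fun i => s (i + 1))
      have e2 := h5' k (c + s 0 • x') (fun i => s (i + 1))
      simp only [Nat.add_le_add_iff_right, Nat.le_zero, Nat.add_eq_zero_iff, one_ne_zero,
        and_false, if_false, add_zero]
      nlinarith

lemma sSup_comb {A B C : Set ℝ} (hA : A.Nonempty) (hB : B.Nonempty) (hC : BddAbove C) {a b : ℝ}
    (ha : 0 ≤ a) (hb : 0 ≤ b) (hab : a + b = 1) (h : ∀ r ∈ A, ∀ s ∈ B, a * r + b * s ∈ C) :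
    a * sSup A + b * sSup B ≤ sSup C := by
  refine le_of_forall_pos_le_add fun ε hε => ?_
  obtain ⟨r, hr, hr'⟩ := exists_lt_of_lt_csSup hA (show sSup A - ε < sSup A by linarith)
  obtain ⟨s, hs, hs'⟩ := exists_lt_of_lt_csSup hB (show sSup B - ε < sSup B by linarith)
  have := le_csSup hC (h r hr s hs)
  have e1 := mul_le_mul_of_nonneg_left hr'.le ha
  have e2 := mul_le_mul_of_nonneg_left hs'.le hb
  have : a * ε + b * ε = ε := by rw [← add_mul, hab, one_mul]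
  nlinarith

theorem james_of_not_renorm (h : ¬ HasEquivUniformlyConvexNorm X) :
    ∃ η : ℝ, 0 < η ∧ ∀ n, ∃ x : X, Str η n x (1 / 2) := by
  by_contra hcon
  push Not at hcon
  refine h (renorm_of_convex fun η hη => ?_)
  obtain ⟨n, hn⟩ := hcon η hη
  set A : ℕ → X → Set ℝ := fun m x => {ρ | 0 ≤ ρ ∧ ρ ≤ 1 ∧ Str η m x ρ} with hA
  have hne : ∀ m, ∀ x ∈ closedBall (0 : X) 2, (0 : ℝ) ∈ A m x := fun m x hx =>
    ⟨le_rfl, zero_le_one, Str.const η m (by simpa using hx)⟩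
  have hbdd : ∀ m x, BddAbove (A m x) := fun m x => ⟨1, fun ρ hρ => hρ.2.1⟩
  set q : ℕ → X → ℝ := fun m x => sSup (A m x) with hq
  have hq0 : ∀ m, ∀ x ∈ closedBall (0 : X) 2, 0 ≤ q m x := fun m x hx =>
    le_csSup (hbdd m x) (hne m x hx)
  have hq1 : ∀ m, ∀ x ∈ closedBall (0 : X) 2, q m x ≤ 1 := fun m x hx =>
    csSup_le ⟨0, hne m x hx⟩ fun ρ hρ => hρ.2.1
  have hqz : ∀ x ∈ closedBall (0 : X) 2, 1 ≤ q 0 x := fun x hx =>
    le_csSup (hbdd 0 x) ⟨zero_le_one, le_rfl, Str.zero η (by simpa using hx) 1⟩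
  have hqn : ∀ x ∈ closedBall (0 : X) 2, q n x ≤ 1 / 2 := fun x hx =>
    csSup_le ⟨0, hne n x hx⟩ fun ρ hρ => by
      by_contra hlt
      exact hn x (hρ.2.2.mono hη.le (le_of_lt (not_le.1 hlt)))
  refine ⟨fun x => 2 * (n - ∑ m ∈ range n, q (m + 1) x), 2 * n + 1, by positivity,
    ⟨convex_closedBall 0 2, fun x hx y hy a b ha hb hab => ?_⟩, fun x hx => ?_,
    fun y hy z hz hfar => ?_⟩
  · have : ∑ m ∈ range n, (a * q (m + 1) x + b * q (m + 1) y) ≤
        ∑ m ∈ range n, q (m + 1) (a • x + b • y) := by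
      refine Finset.sum_le_sum fun m _ => sSup_comb ⟨0, hne _ x hx⟩ ⟨0, hne _ y hy⟩ (hbdd _ _)
        ha hb hab fun r hr s hs => ⟨by have := hr.1; have := hs.1; positivity, ?_,
          hr.2.2.mix hs.2.2 ha hb hab⟩
      nlinarith [hr.2.1, hs.2.1]
    rw [Finset.sum_add_distrib, ← Finset.mul_sum, ← Finset.mul_sum] at this
    simp only [smul_eq_mul]
    have e : (n : ℝ) = a * n + b * n := by rw [← add_mul, hab, one_mul]
    nlinarith
  · have e1 : ∑ m ∈ range n, q (m + 1) x ≤ ∑ m ∈ range n, (1 : ℝ) :=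
      Finset.sum_le_sum fun m _ => hq1 _ x hx
    have e2 : 0 ≤ ∑ m ∈ range n, q (m + 1) x := Finset.sum_nonneg fun m _ => hq0 _ x hx
    simp only [Finset.sum_const, Finset.card_range, nsmul_eq_mul, mul_one] at e1
    constructor <;> linarith
  · have : ∑ m ∈ range n, ((1 / 2) * q m y + (1 / 2) * q m z) ≤
        ∑ m ∈ range n, q (m + 1) ((1 / 2 : ℝ) • (y + z)) := by
      refine Finset.sum_le_sum fun m _ => sSup_comb ⟨0, hne _ y hy⟩ ⟨0, hne _ z hz⟩ (hbdd _ _)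
        (by norm_num) (by norm_num) (by norm_num) fun r hr s hs =>
          ⟨by have := hr.1; have := hs.1; positivity, ?_,
          hr.2.2.jump hη.le hs.2.2 hr.2.1 hs.2.1 (by simpa using hy) (by simpa using hz) hfar⟩
      nlinarith [hr.2.1, hs.2.1]
    rw [Finset.sum_add_distrib, ← Finset.mul_sum, ← Finset.mul_sum] at this
    have e : ∀ u ∈ closedBall (0 : X) 2,
        ∑ m ∈ range n, q (m + 1) u + 1 / 2 ≤ ∑ m ∈ range n, q m u := by
      intro u hu
      have e1 := Finset.sum_range_succ (fun m => q m u) n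
      have e2 := Finset.sum_range_succ' (fun m => q m u) n
      have := hqz u hu
      have := hqn u hu
      linarith
    have := e y hy
    have := e z hz
    linarith

end Crest.Agent.H3MT
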