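import Crest.Agent.H3MT.Geom
import Crest.Agent.H3MT.ChainB

set_option autoImplicit false

namespace Crest.Agent.H3MT

open Finset Crest.AnalysisR

/-- the finite sets of points reached by short words -/
noncomputable def SS {d : ℕ} (σ : Fin d → ℝ ≃o ℝ) (B : Finset ℝ) : ℕ → Finset ℝ
  | 0 => B
  | r + 1 => SS σ B r ∪ univ.biUnion fun j =>
      (SS σ B r).image (σ j) ∪ (SS σ B r).image (σ j).symm

lemma SS_mono {d : ℕ} (σ : Fin d → ℝ ≃o ℝ) (B : Finset ℝ) : Monotone (SS σ B) :=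
  monotone_nat_of_le_succ fun _ => Finset.subset_union_left

lemma SS_fwd {d : ℕ} (σ : Fin d → ℝ ≃o ℝ) (B : Finset ℝ) (r : ℕ) (j : Fin d) :
    ∀ u ∈ SS σ B r, σ j u ∈ SS σ B (r + 1) := fun u hu =>
  Finset.mem_union_right _ (Finset.mem_biUnion.2 ⟨j, Finset.mem_univ _,
    Finset.mem_union_left _ (Finset.mem_image_of_mem _ hu)⟩)

lemma SS_bwd {d : ℕ} (σ : Fin d → ℝ ≃o ℝ) (B : Finset ℝ) (r : ℕ) (j : Fin d) :
    ∀ u ∈ SS σ B r, (σ j).symm u ∈ SS σ B (r + 1) := fun u hu =>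
  Finset.mem_union_right _ (Finset.mem_biUnion.2 ⟨j, Finset.mem_univ _,
    Finset.mem_union_right _ (Finset.mem_image_of_mem _ hu)⟩)

variable {θ p K : ℝ} {ν : Seminorm ℝ V}

theorem main_ineq (hν : Good θ p K ν) (hp : 0 < p) (hK : 0 ≤ K) {t : ℕ} (ht : 1 ≤ t) (N : ℕ)
    {L : ℝ} (hL0 : 0 ≤ L) (hL : ∀ (S : ℕ → Finset ℝ) lo hi x v, GInv S N t lo hi x v →
      hi ≤ lo + 1 → StrictMonoOn x (S t) → L ≤ ν v) :
    L ^ p / 2 ≤ K ^ p * t * phi ν N 1 ^ p := by
  classical
  set d := 4 * t with hd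
  have hd0 : 0 < d := by omega
  have ht' : (1 : ℝ) ≤ t := by exact_mod_cast ht
  have hd' : (0 : ℝ) < d := by exact_mod_cast hd0
  let pp : Fin d → ℝ := fun j => (j : ℝ) / d
  let qq : Fin d → ℝ := fun j => ((j : ℝ) + 1 / 2) / d
  have hpq : ∀ j, pp j < qq j := fun j => div_lt_div_of_pos_right (by linarith) hd'
  have hlt : ∀ j j' : Fin d, j < j' → qq j < pp j' := fun j j' h => by
    have : (j : ℝ) + 1 ≤ j' := by exact_mod_cast h
    exact div_lt_div_of_pos_right (by linarith) hd'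
  have hq1 : ∀ j j', qq j < pp j' + 1 := fun j j' => by
    have e1 : (j : ℝ) + 1 ≤ d := by exact_mod_cast j.2
    have e2 : qq j < 1 := (div_lt_one hd').2 (by linarith)
    have e3 : 0 ≤ pp j' := by positivity
    linarith
  have hgap : ∀ j j₀, j ≠ j₀ → ∃ c : ℤ, (0 ≤ c ∧ c ≤ 1) ∧ qq j₀ < pp j + c ∧
      qq j + c < pp j₀ + 1 := by
    intro j j₀ h
    rcases lt_or_gt_of_ne h with h | h
    · exact ⟨1, by omega, by simpa using hq1 j₀ j, by simpa using hlt j j₀ h⟩
    · exact ⟨0, by omega, by simpa using hlt j₀ j h, by simpa using hq1 j j₀⟩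
  choose σ hσ hσp hσq using fun j => exists_sigma (hpq j) (hq1 j j)
  have hσ' : ∀ j (x : ℝ) (n : ℤ), (σ j).symm (x + n) = (σ j).symm x + n := fun j x n => by
    apply (σ j).injective
    rw [hσ, OrderIso.apply_symm_apply, OrderIso.apply_symm_apply]
  have hσn : ∀ j (x : ℝ) (n : ℕ), σ j (x + n) = σ j x + n := fun j x n => by
    simpa using hσ j x n
  let B : Finset ℝ := univ.biUnion fun j => (range (N + 1)).biUnion fun k =>
    {pp j + k, qq j + k}
  let S := SS σ B
  have hB0 : ∀ r j, ∀ k < N + 1, pp j + k ∈ S r ∧ qq j + k ∈ S r := fun r j k hk =>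
    ⟨SS_mono σ B (Nat.zero_le r) (Finset.mem_biUnion.2 ⟨j, Finset.mem_univ _,
      Finset.mem_biUnion.2 ⟨k, Finset.mem_range.2 hk, by simp⟩⟩),
    SS_mono σ B (Nat.zero_le r) (Finset.mem_biUnion.2 ⟨j, Finset.mem_univ _,
      Finset.mem_biUnion.2 ⟨k, Finset.mem_range.2 hk, by simp⟩⟩)⟩
  have hB1 : ∀ r j, ∀ k < N, pp j + 1 + k ∈ S r := fun r j k hk => by
    have := (hB0 r j (k + 1) (by omega)).1
    push_cast at this
    convert this using 1; ring
  let ρ : ℝ → ℕ := fun u => ((S (t + 1)).filter (· < u)).card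
  have hρ : StrictMonoOn ρ (S (t + 1)) := by
    intro u hu v _ huv
    refine Finset.card_lt_card ⟨fun w hw => ?_, fun h => ?_⟩
    · rw [Finset.mem_filter] at hw ⊢
      exact ⟨hw.1, hw.2.trans huv⟩
    · have := h (Finset.mem_filter.2 ⟨hu, huv⟩)
      exact lt_irrefl _ (Finset.mem_filter.1 this).2
  let ι₀ : S t → ℕ := fun u => ρ u
  let ι : Fin d → S t → ℕ := fun j u => ρ (σ j u)
  have hι₀ : StrictMono ι₀ := fun u v h =>
    hρ (SS_mono σ B (Nat.le_succ t) u.2) (SS_mono σ B (Nat.le_succ t) v.2) h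
  have hι : ∀ j, StrictMono (ι j) := fun j u v h =>
    hρ (SS_fwd σ B t j u u.2) (SS_fwd σ B t j v v.2) ((σ j).strictMono h)
  obtain ⟨A, _, m, X, hm0, hm1, hX, hHB⟩ := exists_model hι₀ hι
    (show (0 : ℝ) < 1 / (16 * t) by positivity)
  let ext : (S t → ℕ) → ℝ → ℕ := fun y u => if h : u ∈ S t then y ⟨u, h⟩ else 0
  have hext : ∀ y, StrictMono y → StrictMonoOn (ext y) (S t) := fun y hy u hu v hv huv => by
    simp only [ext, dif_pos (Finset.mem_coe.1 hu), dif_pos (Finset.mem_coe.1 hv)]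
    exact hy huv
  let T₀ : Finset (S t → ℕ) := univ.image (fun a => X a ∘ ι₀) ∪
    univ.biUnion fun j => univ.image fun a => X a ∘ ι j
  have hT₀ : ∀ y ∈ T₀, StrictMono y := by
    intro y hy
    simp only [T₀, Finset.mem_union, Finset.mem_image, Finset.mem_biUnion, Finset.mem_univ,
      true_and] at hy
    rcases hy with ⟨a, rfl⟩ | ⟨j, a, rfl⟩
    · exact (hX a).1
    · exact (hX a).2 j
  let tail : A → T₀ := fun a => ⟨X a ∘ ι₀,
    Finset.mem_union_left _ (Finset.mem_image_of_mem _ (Finset.mem_univ a))⟩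
  let head : Fin d → A → T₀ := fun j a => ⟨X a ∘ ι j, Finset.mem_union_right _
    (Finset.mem_biUnion.2 ⟨j, Finset.mem_univ _, Finset.mem_image_of_mem _ (Finset.mem_univ a)⟩)⟩
  have hth : ∀ j a u, u ∈ S t → σ j u ∈ S t → ext (head j a) u = ext (tail a) (σ j u) := by
    intro j a u h1 h2
    simp only [ext, dif_pos h1, dif_pos h2]
    rfl
  let f : Fin d → A → V := fun j a => ∑ k ∈ range N,
    (e (ext (tail a) (pp j + 1 + k)) - e (ext (tail a) (qq j + k)))
  have key := chainC (T := T₀) hd0 hp hK ν hν.mt m hm0 hm1 tail head f (s := phi ν N 1) (L := L)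
    (apply_nonneg _ _) ?_ (show (0 : ℝ) ≤ 1 / (16 * t) by positivity) ?_ ht
    (fun r j y v => GInv S N r (qq j) (pp j + 1) (ext y) v) (fun j y => GInv.zero _ _ _ _ _)
    ?_ ?_ ?_ hL0 (8 * t)
  · refine le_trans ?_ key
    have e : (t : ℝ) * (1 / d + 2 * (1 / (16 * t)) + 1 / (((8 * t : ℕ) : ℝ) + 1)) ≤ 1 / 2 := by
      have e1 : 1 / (((8 * t : ℕ) : ℝ) + 1) ≤ 1 / (8 * t) := by
        push_cast
        exact one_div_le_one_div_of_le (by positivity) (by linarith)
      calc _ ≤ (t : ℝ) * (1 / d + 2 * (1 / (16 * t)) + 1 / (8 * t)) := by gcongr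
        _ = 1 / 2 := by rw [hd]; push_cast; field_simp; norm_num
    have := Real.rpow_nonneg hL0 p
    nlinarith
  · intro j a
    have hs := hext _ (hT₀ _ (tail a).2)
    have := pattern hν (N := N) (t := 1) (fun k _ => ext (tail a) (qq j + k))
      (fun k _ => ext (tail a) (pp j + 1 + k)) (fun k _ i hi j hj _ => by omega)
      (fun k _ i hi j hj _ => by omega)
      (fun k hk _ _ _ _ => hs (hB0 t j k (by omega)).2 (hB1 t j k hk) (by linarith [hq1 j j]))
      (fun k k' hk hk' _ _ _ _ => hs (hB1 t j k (by omega)) (hB0 t j k' (by omega)).2 (by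
        have : (k : ℝ) + 1 ≤ k' := by exact_mod_cast hk
        linarith [hpq j]))
    rw [← this, ← map_neg_eq_map]
    simp only [f, Finset.sum_range_one, ← Finset.sum_neg_distrib, neg_sub, le_refl]
  · intro H hH j
    have := hHB (fun y => if h : y ∈ T₀ then H ⟨y, h⟩ else 0) (fun y => by
      split_ifs
      · exact hH _
      · simp) j
    convert this using 4 with a _ a _
    · rw [dif_pos (show X a ∘ ι₀ ∈ T₀ from (tail a).2)]
    · rw [dif_pos (show X a ∘ ι j ∈ T₀ from (head j a).2)]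
  · intro r hr j₀ j a v hj h
    obtain ⟨c, hc, hc1, hc2⟩ := hgap j j₀ hj
    have := h.step (x := ext (tail a)) (hpq j) (σ j) (hσ j) (c₁ := 1) (by omega) hc
      (by simpa using hσq j) (by simpa [hσp] using hσ j (pp j) 1) hc1 hc2
      (fun u hu => hth j a u (SS_mono σ B hr.le hu) (SS_mono σ B hr (SS_fwd σ B r j u hu)))
      (SS_fwd σ B r j) (fun k hk => ⟨by simpa using hB1 _ j k hk, (hB0 _ j k (by omega)).2⟩)
    simpa only [Int.cast_one] using this
  · intro r hr j₀ j a v hj h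
    obtain ⟨c, hc, hc1, hc2⟩ := hgap j j₀ hj
    have := h.step (x := ext (head j a)) (hpq j) (σ j).symm (hσ' j) (c₁ := 0) (by omega) hc
      (by rw [← hσp j]; simp) (by rw [← hσq j]; simp) hc1 hc2
      (fun u hu => by
        rw [hth j a _ (SS_mono σ B hr (SS_bwd σ B r j u hu))
          (by simpa using SS_mono σ B hr.le hu), OrderIso.apply_symm_apply])
      (SS_bwd σ B r j) (fun k hk => by simpa using hB0 _ j k (by omega))
    convert this using 2
    simp only [f, ← Finset.sum_neg_distrib, neg_sub, Int.cast_zero, add_zero]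
    refine Finset.sum_congr rfl fun k hk => ?_
    have hk := Finset.mem_range.1 hk
    rw [hth j a _ (hB0 t j k (by omega)).1 (by rw [hσn, hσp]; exact (hB0 t j k (by omega)).2),
      hth j a _ (hB0 t j k (by omega)).2 (by rw [hσn, hσq]; exact hB1 t j k hk),
      hσn, hσn, hσp, hσq]
  · intro j y v h
    exact hL S _ _ _ v h (by linarith [hpq j]) (hext _ (hT₀ _ y.2))

lemma no_linear (hp : 1 < p) (hK : 0 < K) {C : ℝ} (hC : 0 < C) :
    ∃ t : ℕ, 1 ≤ t ∧ ∀ u : ℝ, 0 < u → ¬ (t * u) ^ p / 2 ≤ K ^ p * t * (C * u) ^ p := by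
  have h1 : Filter.Tendsto (fun t : ℕ => (t : ℝ) ^ (p - 1)) Filter.atTop Filter.atTop :=
    (tendsto_rpow_atTop (by linarith)).comp tendsto_natCast_atTop_atTop
  obtain ⟨t, ht1, ht2⟩ := ((Filter.eventually_ge_atTop 1).and
    (h1.eventually_gt_atTop (2 * K ^ p * C ^ p))).exists
  refine ⟨t, ht1, fun u hu h => ?_⟩
  have ht' : (0 : ℝ) < t := by exact_mod_cast ht1
  rw [Real.mul_rpow ht'.le hu.le, Real.mul_rpow hC.le hu.le] at h
  have e : (t : ℝ) ^ p = t ^ (p - 1) * t := by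
    rw [Real.rpow_sub_one ht'.ne']; field_simp
  have hup : 0 < u ^ p := Real.rpow_pos_of_pos hu p
  rw [e] at h
  have := mul_lt_mul_of_pos_right ht2 (mul_pos ht' hup)
  nlinarith

theorem not_good (hp : 1 < p) (hK : 0 < K) (hθ : 0 < θ) (hν : Good θ p K ν) : False := by
  have hp0 : 0 < p := by linarith
  by_cases hcase : ∃ B : ℝ, ∀ N, ∃ ν, Good θ p K ν ∧ phi ν N 1 ≤ B
  · obtain ⟨B, hB⟩ := hcase
    obtain ⟨t, ht, hno⟩ := no_linear hp hK (C := 2 * (|B| + 1) / θ) (by positivity)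
    obtain ⟨μ, hμ, hμB⟩ := hB (1 + 2 * t)
    refine hno (θ / 2) (by positivity) ?_
    have := main_ineq hμ hp0 hK.le ht (1 + 2 * t) (L := θ * t / 2) (by positivity)
      fun S lo hi x v h1 h2 h3 => h1.lower2 hμ hθ.le ht h2 h3
    have e1 : (t : ℝ) * (θ / 2) = θ * t / 2 := by ring
    have e2 : 2 * (|B| + 1) / θ * (θ / 2) = |B| + 1 := by field_simp
    rw [e1, e2]
    refine this.trans (mul_le_mul_of_nonneg_left (Real.rpow_le_rpow (apply_nonneg _ _) ?_ hp0.le)
      (by positivity))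
    exact hμB.trans (by linarith [le_abs_self B])
  · push Not at hcase
    obtain ⟨t, ht, hno⟩ := no_linear hp hK (C := 6) (by norm_num)
    have ht' : (1 : ℝ) ≤ t := by exact_mod_cast ht
    obtain ⟨N, hN⟩ := hcase (8 * t)
    let A : Set ℝ := {b | ∃ ν, Good θ p K ν ∧ phi ν N 1 = b}
    have hne : A.Nonempty := ⟨_, ν, hν, rfl⟩
    have hlow : 8 * (t : ℝ) ∈ lowerBounds A := by
      rintro _ ⟨μ, hμ, rfl⟩
      exact (hN μ hμ).le
    have hb : 8 * (t : ℝ) ≤ sInf A := le_csInf hne hlow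
    obtain ⟨_, ⟨μ, hμ, rfl⟩, hμb⟩ := exists_lt_of_csInf_lt hne
      (show sInf A < 2 * sInf A by linarith)
    have hb2 : sInf A ≤ phi (μ.comp (blow t)) N 1 :=
      csInf_le ⟨_, hlow⟩ ⟨_, hμ.blow (by omega), rfl⟩
    refine hno (sInf A / 2) (by linarith) ?_
    have := main_ineq hμ hp0 hK.le ht (N + 2 * t) (L := t * (sInf A / 2))
      (by apply mul_nonneg <;> linarith) fun S lo hi x v h1 h2 h3 => by
        refine le_trans ?_ (h1.lower1 hμ h2 h3)
        rw [phi_blow μ N (by omega)]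
        nlinarith
    refine this.trans (mul_le_mul_of_nonneg_left (Real.rpow_le_rpow (apply_nonneg _ _) ?_ hp0.le)
      (by positivity))
    have := phi_add_le hμ N (2 * t)
    push_cast at this
    change phi μ (N + 2 * t) 1 ≤ _
    linarith

theorem markov_superreflexive (X : Type*) [NormedAddCommGroup X] [NormedSpace ℝ X]
    (p K : ℝ) (hp : 1 < p) (hK : 0 < K) (hX : HasMarkovType X p K) :
    HasEquivUniformlyConvexNorm X := by
  by_contra h
  obtain ⟨θ, hθ, ν, hν⟩ := exists_good hp hX h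
  exact not_good hp hK hθ hν

end Crest.Agent.H3MT
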