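import Crest.Agent.H3MT.Good

set_option autoImplicit false

namespace Crest.Agent.H3MT

open Finset

/-- norm of the standard alternating pattern with `N` periods and runs of length `t` -/
noncomputable def phi (ν : Seminorm ℝ V) (N t : ℕ) : ℝ :=
  ν (∑ k ∈ range N, ∑ l ∈ range t, (e (t * (2 * k) + l) - e (t * (2 * k + 1) + l)))

lemma exists_sort {t : ℕ} (f : Fin t → ℕ) (hf : Function.Injective f) :
    ∃ α : Fin t ≃ Fin t, StrictMono (f ∘ α) := by
  refine ⟨Tuple.sort f, (Tuple.monotone_sort f).strictMono_of_injective ?_⟩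
  exact hf.comp (Tuple.sort f).injective

variable {θ p K : ℝ} {ν : Seminorm ℝ V}

lemma pattern_aux (h : Good θ p K ν) {N t : ℕ} (a b a' b' : Fin N → Fin t → ℕ)
    (ha : ∀ k, StrictMono (a k)) (hb : ∀ k, StrictMono (b k))
    (hab : ∀ k i j, a k i < b k j) (hba : ∀ k k' i j, k < k' → b k i < a k' j)
    (ha' : ∀ k, StrictMono (a' k)) (hb' : ∀ k, StrictMono (b' k))
    (hab' : ∀ k i j, a' k i < b' k j) (hba' : ∀ k k' i j, k < k' → b' k i < a' k' j) :
    ν (∑ k, ∑ i, (e (a k i) - e (b k i))) = ν (∑ k, ∑ i, (e (a' k i) - e (b' k i))) := by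
  let x : (Fin N → Fin t → ℕ) → (Fin N → Fin t → ℕ) → Fin N ×ₗ (Bool ×ₗ Fin t) → ℕ :=
    fun a b u => if (ofLex (ofLex u).2).1 then b (ofLex u).1 (ofLex (ofLex u).2).2
      else a (ofLex u).1 (ofLex (ofLex u).2).2
  let c : Fin N ×ₗ (Bool ×ₗ Fin t) → ℝ := fun u => if (ofLex (ofLex u).2).1 then -1 else 1
  have key : ∀ a b : Fin N → Fin t → ℕ,
      ∑ k, ∑ i, (e (a k i) - e (b k i)) = ∑ u, c u • e (x a b u) := by
    intro a b
    rw [← (toLex (α := Fin N × (Bool ×ₗ Fin t))).sum_comp, Fintype.sum_prod_type]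
    refine Finset.sum_congr rfl fun k _ => ?_
    rw [← (toLex (α := Bool × Fin t)).sum_comp, Fintype.sum_prod_type, Fintype.sum_bool]
    simp [x, c, Finset.sum_sub_distrib, sub_eq_neg_add, Finset.sum_add_distrib]
  have mono : ∀ a b : Fin N → Fin t → ℕ, (∀ k, StrictMono (a k)) → (∀ k, StrictMono (b k)) →
      (∀ k i j, a k i < b k j) → (∀ k k' i j, k < k' → b k i < a k' j) → StrictMono (x a b) := by
    intro a b ha hb hab hba u v huv
    obtain ⟨⟨k, u⟩, rfl⟩ := toLex.surjective u
    obtain ⟨⟨k', v⟩, rfl⟩ := toLex.surjective v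
    obtain ⟨⟨s, i⟩, rfl⟩ := toLex.surjective u
    obtain ⟨⟨s', j⟩, rfl⟩ := toLex.surjective v
    simp only [Prod.Lex.toLex_lt_toLex] at huv
    simp only [x, ofLex_toLex]
    rcases huv with h1 | ⟨rfl, h1 | ⟨rfl, h1⟩⟩
    · cases s <;> cases s' <;> simp only [Bool.false_eq_true, if_false, if_true]
      · exact (hab k i i).trans (hba k k' i j h1)
      · exact ((hab k i i).trans (hba k k' i j h1)).trans (hab k' j j)
      · exact hba k k' i j h1
      · exact (hba k k' i j h1).trans (hab k' j j)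
    · cases s <;> cases s' <;> simp only [Bool.false_eq_true, if_false, if_true]
      · exact absurd h1 (lt_irrefl _)
      · exact hab k i j
      · exact absurd h1 (by decide)
      · exact absurd h1 (lt_irrefl _)
    · cases s <;> simp only [Bool.false_eq_true, if_false, if_true]
      · exact ha k h1
      · exact hb k h1
  rw [key, key]
  exact h.spread _ _ _ _ (mono a b ha hb hab hba) (mono a' b' ha' hb' hab' hba')

lemma pattern (h : Good θ p K ν) {N t : ℕ} (a b : ℕ → ℕ → ℕ)
    (ha : ∀ k < N, ∀ i < t, ∀ j < t, a k i = a k j → i = j)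
    (hb : ∀ k < N, ∀ i < t, ∀ j < t, b k i = b k j → i = j)
    (hab : ∀ k < N, ∀ i < t, ∀ j < t, a k i < b k j)
    (hba : ∀ k k', k < k' → k' < N → ∀ i < t, ∀ j < t, b k i < a k' j) :
    ν (∑ k ∈ range N, ∑ i ∈ range t, (e (a k i) - e (b k i))) = phi ν N t := by
  have h1 := fun k : Fin N => exists_sort (fun i : Fin t => a k i)
    fun i j hij => Fin.ext (ha k k.2 i i.2 j j.2 hij)
  have h2 := fun k : Fin N => exists_sort (fun i : Fin t => b k i)
    fun i j hij => Fin.ext (hb k k.2 i i.2 j j.2 hij)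
  choose α hα using h1
  choose β hβ using h2
  have e1 : ∑ k ∈ range N, ∑ i ∈ range t, (e (a k i) - e (b k i)) =
      ∑ k : Fin N, ∑ i : Fin t, (e (a k (α k i)) - e (b k (β k i))) := by
    rw [Finset.sum_range]
    refine Finset.sum_congr rfl fun k _ => ?_
    rw [Finset.sum_range, Finset.sum_sub_distrib, Finset.sum_sub_distrib,
      (α k).sum_comp (fun i : Fin t => e (a k i)), (β k).sum_comp (fun i : Fin t => e (b k i))]
  rw [e1, phi, Finset.sum_range]
  simp only [Finset.sum_range (n := t)]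
  refine pattern_aux h (fun k i => a k (α k i)) (fun k i => b k (β k i))
    (fun k i => t * (2 * k) + i) (fun k i => t * (2 * k + 1) + i) hα hβ
    (fun k i j => hab k k.2 _ (α k i).2 _ (β k j).2)
    (fun k k' i j hk => hba k k' hk k'.2 _ (β k i).2 _ (α k' j).2)
    (fun k i j hij => by have : (i : ℕ) < j := hij; simp only; omega)
    (fun k i j hij => by have : (i : ℕ) < j := hij; simp only; omega)
    (fun k i j => by have := i.2; simp only [Nat.mul_add]; omega) (fun k k' i j hk => ?_)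
  have h3 : (k : ℕ) + 1 ≤ k' := hk
  have := Nat.mul_le_mul_left t (Nat.mul_le_mul_left 2 h3)
  have := i.2
  simp only [Nat.mul_add] at *
  omega

lemma phi_blow (ν : Seminorm ℝ V) (N : ℕ) {t : ℕ} (ht : 0 < t) :
    phi ν N t = t * phi (ν.comp (blow t)) N 1 := by
  have ht' : (0 : ℝ) < t := by exact_mod_cast ht
  simp only [phi, Seminorm.comp_apply, map_sum, map_sub, blow_e, Finset.sum_range_one, one_mul,
    add_zero, ← smul_sub, ← Finset.smul_sum, map_smul_eq_mul, ← Finset.sum_sub_distrib]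
  rw [Real.norm_of_nonneg (by positivity), ← mul_assoc, mul_one_div_cancel ht'.ne', one_mul]
  simp only [Finset.sum_range (n := t)]

lemma phi_add_le (h : Good θ p K ν) (N M : ℕ) : phi ν (N + M) 1 ≤ phi ν N 1 + 2 * M := by
  simp only [phi, Finset.sum_range_one]
  rw [Finset.sum_range_add]
  refine (map_add_le_add _ _ _).trans (add_le_add le_rfl ?_)
  refine (semi_sum_le _ _ _).trans ?_
  have : ∀ i j, ν (e i - e j) ≤ 2 := fun i j =>
    (map_sub_le_add _ _ _).trans (by linarith [h.le_one i, h.le_one j])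
  refine (Finset.sum_le_sum fun i _ => this _ _).trans (le_of_eq ?_)
  simp [mul_comm]

end Crest.Agent.H3MT
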