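import Mathlib
import Crest.Prelude.Def_MarkovType

set_option autoImplicit false

namespace Crest.Agent.H3MT

open Crest.AnalysisR Metric Finset

variable {X : Type*} [NormedAddCommGroup X] [NormedSpace ℝ X]

/-- Renorming from bounded convex functions with a midpoint gain. -/
theorem renorm_of_convex
    (h : ∀ η : ℝ, 0 < η → ∃ (F : X → ℝ) (B : ℝ), 0 < B ∧ ConvexOn ℝ (closedBall 0 2) F ∧
      (∀ x ∈ closedBall (0 : X) 2, 0 ≤ F x ∧ F x ≤ B) ∧
      ∀ y ∈ closedBall (0 : X) 2, ∀ z ∈ closedBall (0 : X) 2, η ≤ ‖y - z‖ →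
        F ((1 / 2 : ℝ) • (y + z)) ≤ (F y + F z) / 2 - 1) :
    HasEquivUniformlyConvexNorm X := by
  have h' := fun j : ℕ => h (1 / ((j : ℝ) + 1)) (by positivity)
  choose F B hB hconv hbd hgain using h'
  set κ : ℕ → ℝ := fun j => (1 / 2 : ℝ) ^ j / (8 * B j) with hκ
  have hκpos : ∀ j, 0 < κ j := fun j => by have := hB j; positivity
  set f : ℕ → X → ℝ := fun m x => ‖x‖ + ∑ j ∈ range m, κ j * (F j x + F j (-x)) with hf
  have hneg : ∀ x ∈ closedBall (0 : X) 2, -x ∈ closedBall (0 : X) 2 := fun x hx => by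
    simpa using hx
  have hterm : ∀ j, ∀ x ∈ closedBall (0 : X) 2, 0 ≤ κ j * (F j x + F j (-x)) ∧
      κ j * (F j x + F j (-x)) ≤ (1 / 2 : ℝ) ^ j / 4 := by
    intro j x hx
    have h1 := hbd j x hx
    have h2 := hbd j _ (hneg x hx)
    have hb := hB j
    refine ⟨mul_nonneg (hκpos j).le (by linarith), ?_⟩
    calc κ j * (F j x + F j (-x)) ≤ κ j * (2 * B j) :=
          mul_le_mul_of_nonneg_left (by linarith) (hκpos j).le
      _ = (1 / 2 : ℝ) ^ j / 4 := by simp only [hκ]; field_simp; norm_num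
  have hfup : ∀ m, ∀ x ∈ closedBall (0 : X) 2, f m x ≤ ‖x‖ + 1 / 2 := by
    intro m x hx
    have : ∑ j ∈ range m, κ j * (F j x + F j (-x)) ≤ ∑ j ∈ range m, (1 / 2 : ℝ) ^ j / 4 :=
      Finset.sum_le_sum fun j _ => (hterm j x hx).2
    rw [← Finset.sum_div] at this
    have h2 := sum_geometric_two_le m
    simp only [hf]
    linarith
  have hfmono : ∀ m m', m ≤ m' → ∀ x ∈ closedBall (0 : X) 2, f m x ≤ f m' x := by
    intro m m' hm x hx
    simp only [hf]
    have : ∑ j ∈ range m, κ j * (F j x + F j (-x)) ≤ ∑ j ∈ range m', κ j * (F j x + F j (-x)) :=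
      Finset.sum_le_sum_of_subset_of_nonneg (Finset.range_mono hm) fun j _ _ => (hterm j x hx).1
    linarith
  have hfconv : ∀ m, ∀ x ∈ closedBall (0 : X) 2, ∀ y ∈ closedBall (0 : X) 2, ∀ a b : ℝ,
      0 ≤ a → 0 ≤ b → a + b = 1 → f m (a • x + b • y) ≤ a * f m x + b * f m y := by
    intro m x hx y hy a b ha hb hab
    simp only [hf]
    have h1 : ‖a • x + b • y‖ ≤ a * ‖x‖ + b * ‖y‖ := by
      calc _ ≤ ‖a • x‖ + ‖b • y‖ := norm_add_le _ _
        _ = _ := by rw [norm_smul, norm_smul, Real.norm_of_nonneg ha, Real.norm_of_nonneg hb]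
    have h2 : ∑ j ∈ range m, κ j * (F j (a • x + b • y) + F j (-(a • x + b • y))) ≤
        ∑ j ∈ range m, (a * (κ j * (F j x + F j (-x))) + b * (κ j * (F j y + F j (-y)))) := by
      refine Finset.sum_le_sum fun j _ => ?_
      have e1 := (hconv j).2 hx hy ha hb hab
      have e2 := (hconv j).2 (hneg x hx) (hneg y hy) ha hb hab
      have e3 : -(a • x + b • y) = a • (-x) + b • (-y) := by simp [add_comm]
      rw [e3]
      simp only [smul_eq_mul] at e1 e2
      have := mul_le_mul_of_nonneg_left (add_le_add e1 e2) (hκpos j).le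
      linarith
    rw [Finset.sum_add_distrib, ← Finset.mul_sum, ← Finset.mul_sum] at h2
    linarith
  set D : Set X := {x | x ∈ closedBall (0 : X) 2 ∧ ∀ m, f m x ≤ 1} with hD
  have hDconv : Convex ℝ D := by
    intro x hx y hy a b ha hb hab
    refine ⟨convex_closedBall 0 2 hx.1 hy.1 ha hb hab, fun m => ?_⟩
    have := hfconv m x hx.1 y hy.1 a b ha hb hab
    nlinarith [hx.2 m, hy.2 m]
  have hDneg : ∀ ⦃x⦄, x ∈ D → -x ∈ D := by
    intro x hx
    refine ⟨hneg x hx.1, fun m => ?_⟩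
    have := hx.2 m
    simp only [hf, norm_neg, neg_neg] at this ⊢
    simpa only [add_comm] using this
  have hsub1 : closedBall (0 : X) (1 / 2) ⊆ D := by
    intro x hx
    have hx' : ‖x‖ ≤ 1 / 2 := by simpa using hx
    have hx2 : x ∈ closedBall (0 : X) 2 := by simp; linarith
    exact ⟨hx2, fun m => by have := hfup m x hx2; linarith⟩
  have hsub2 : D ⊆ closedBall (0 : X) 1 := by
    intro x hx
    have := hx.2 0
    simpa [hf] using this
  have habs0 : Absorbent ℝ (closedBall (0 : X) (1 / 2)) :=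
    absorbent_nhds_zero (closedBall_mem_nhds _ (by norm_num))
  have habs : Absorbent ℝ D := habs0.mono hsub1
  have hbal : Balanced ℝ D := (balanced_iff_neg_mem hDconv).2 hDneg
  have hlow : ∀ x, ‖x‖ ≤ gauge D x := fun x => by
    have := gauge_mono habs hsub2 x
    rwa [gauge_closedBall zero_le_one, div_one] at this
  have hup : ∀ x, gauge D x ≤ 2 * ‖x‖ := fun x => by
    have := gauge_mono habs0 hsub1 x
    rw [gauge_closedBall (by norm_num)] at this
    linarith
  refine ⟨gaugeSeminorm hbal hDconv habs, 1, 2, one_pos, two_pos, fun x => ⟨by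
    simpa using hlow x, by simpa using hup x⟩, fun ε hε _ => ?_⟩
  obtain ⟨j, hj⟩ := exists_nat_one_div_lt (K := ℝ) (show 0 < ε / 4 by positivity)
  set δ : ℝ := min 1 (κ j / 3) with hδ
  have hδ0 : 0 < δ := lt_min one_pos (by have := hκpos j; positivity)
  have hδ1 : δ ≤ 1 := min_le_left _ _
  have hδ2 : δ ≤ κ j / 3 := min_le_right _ _
  refine ⟨δ / 4, by positivity, fun x y hx hy hxy => ?_⟩
  simp only [gaugeSeminorm_toFun] at hx hy hxy ⊢
  set s : ℝ := 1 - δ / 4 with hs
  have hs0 : 0 < s := by linarith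
  have hmem : ∀ u, gauge D u ≤ 1 → s • u ∈ D := by
    intro u hu
    refine setOfPred_gauge_lt_one_subset_self hDconv habs.zero_mem habs ?_
    show gauge D (s • u) < 1
    rw [gauge_smul_of_nonneg hs0.le, smul_eq_mul]
    have := gauge_nonneg (s := D) u
    nlinarith
  have hxD := hmem x hx
  have hyD := hmem y hy
  have hfar : 1 / ((j : ℝ) + 1) ≤ ‖s • x - s • y‖ := by
    rw [← smul_sub, norm_smul, Real.norm_of_nonneg hs0.le]
    have := hup (x - y)
    have h3 : ε / 2 ≤ ‖x - y‖ := by linarith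
    nlinarith
  set u : X := (1 / 2 : ℝ) • (s • x + s • y) with hu
  have huD : u ∈ D := by
    have := hDconv hxD hyD (a := 1 / 2) (b := 1 / 2) (by norm_num) (by norm_num) (by norm_num)
    rwa [← smul_add] at this
  have hu1 : ‖u‖ ≤ 1 := by simpa using hsub2 huD
  have hgainu : ∀ m, f m u ≤ 1 - κ j := by
    intro m
    refine (hfmono m (max m (j + 1)) (le_max_left _ _) u huD.1).trans ?_
    set m' := max m (j + 1)
    have hjm : j ∈ range m' := Finset.mem_range.2 (lt_of_lt_of_le (Nat.lt_succ_self j)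
      (le_max_right _ _))
    have e1 := hxD.2 m'
    have e2 := hyD.2 m'
    simp only [hf] at e1 e2 ⊢
    have h1 : ‖u‖ ≤ (‖s • x‖ + ‖s • y‖) / 2 := by
      rw [hu, norm_smul, Real.norm_of_nonneg (by norm_num)]
      have := norm_add_le (s • x) (s • y)
      linarith
    have h2 : ∑ i ∈ range m', κ i * (F i u + F i (-u)) ≤
        ∑ i ∈ range m', ((κ i * (F i (s • x) + F i (-(s • x))) +
          κ i * (F i (s • y) + F i (-(s • y)))) / 2 - if i = j then κ j else 0) := by
      refine Finset.sum_le_sum fun i _ => ?_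
      have hh : (0 : ℝ) ≤ 1 / 2 := by norm_num
      have c1 := (hconv i).2 hxD.1 hyD.1 hh hh (by norm_num)
      have c2 := (hconv i).2 (hneg _ hxD.1) (hneg _ hyD.1) hh hh (by norm_num)
      have e3 : (1 / 2 : ℝ) • (-(s • x)) + (1 / 2 : ℝ) • (-(s • y)) = -u := by
        rw [hu]; module
      rw [e3] at c2
      rw [← smul_add, ← hu] at c1
      simp only [smul_eq_mul] at c1 c2
      split_ifs with hij
      · subst hij
        have c3 := hgain i _ hxD.1 _ hyD.1 hfar
        rw [← hu] at c3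
        have := mul_le_mul_of_nonneg_left (add_le_add c3 c2) (hκpos i).le
        linarith
      · have := mul_le_mul_of_nonneg_left (add_le_add c1 c2) (hκpos i).le
        linarith
    rw [Finset.sum_sub_distrib, ← Finset.sum_div, Finset.sum_add_distrib, Finset.sum_ite_eq',
      if_pos hjm] at h2
    linarith
  have h2u : (2 : ℝ) • u ∈ closedBall (0 : X) 2 := by
    rw [mem_closedBall_zero_iff, norm_smul]; simp; linarith
  have hbig : (1 - δ) • u + δ • ((2 : ℝ) • u) ∈ D := by
    refine ⟨convex_closedBall 0 2 huD.1 h2u (by linarith) hδ0.le (by ring), fun m => ?_⟩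
    have c1 := hfconv m u huD.1 _ h2u (1 - δ) δ (by linarith) hδ0.le (by ring)
    have c2 := hfup m _ h2u
    have c3 : ‖(2 : ℝ) • u‖ ≤ 2 := by simpa using h2u
    have c4 := hgainu m
    have c5 : 0 ≤ f m u := by
      refine le_trans ?_ (hfmono 0 m (Nat.zero_le _) u huD.1)
      simp [hf]
    have c6 : δ * f m ((2 : ℝ) • u) ≤ δ * (5 / 2) :=
      mul_le_mul_of_nonneg_left (by linarith) hδ0.le
    have c7 : 0 ≤ δ * f m u := mul_nonneg hδ0.le c5
    have := hκpos j
    nlinarith
  have e : (1 - δ) • u + δ • ((2 : ℝ) • u) = ((1 + δ) * s) • ((1 / 2 : ℝ) • (x + y)) := by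
    rw [hu]; module
  have c := gauge_le_one_of_mem hbig
  rw [e, gauge_smul_of_nonneg (by positivity), smul_eq_mul] at c
  have g0 := gauge_nonneg (s := D) ((1 / 2 : ℝ) • (x + y))
  by_contra hcon
  push Not at hcon
  have : (1 + δ) * s * (1 - δ / 4) < (1 + δ) * s * gauge D ((1 / 2 : ℝ) • (x + y)) :=
    mul_lt_mul_of_pos_left hcon (by positivity)
  have h5 : 1 ≤ (1 + δ) * s * (1 - δ / 4) := by
    rw [hs]; nlinarith [mul_nonneg hδ0.le (sub_nonneg.2 hδ1), mul_pos hδ0 hδ0,
      mul_pos (mul_pos hδ0 hδ0) hδ0]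
  linarith

end Crest.Agent.H3MT
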